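import Vale.Agent.Lib.P329.helper28.CertOne
import Vale.Agent.Lib.P329.helper24.Zone

/-!
# P329 (helper28): affine automata on `ZMod 5` without reflections

The letter `a` acts on `ZMod 5` as `x ↦ μ a * x + v a`.  The final state is additive in the pair
(table `v`, initial state).  If every `μ a` is `1`, `2` or `3`, every table is a combination of
tables all of whose maps lie in one of the two lists `setA`, `setB`; for such tables the final
state is a good function by the hub lemma.  Hence the final state from `0` and the product of the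
multipliers are good functions for every table.
-/

namespace Vale.Agent.Lib.P329.helper28

open Vale.Agent.Lib.P329 Vale.Agent.Lib.P329.helper24

variable {α : Type}

/-- The affine automaton on `ZMod 5`: the letter `a` acts as `x ↦ μ a * x + v a`. -/
def aff (μ v : α → ZMod 5) (x : ZMod 5) (a : α) : ZMod 5 := μ a * x + v a

theorem run_aff_add (μ v v' : α → ZMod 5) (w : List α) : ∀ x x' : ZMod 5,
    run (aff μ (v + v')) (x + x') w = run (aff μ v) x w + run (aff μ v') x' w := by
  induction w with
  | nil => intro x x'; rfl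
  | cons a w ih =>
    intro x x'
    rw [run_cons, run_cons, run_cons, ← ih]
    congr 1
    simp only [aff, Pi.add_apply]
    ring

theorem run_aff_smul (μ v : α → ZMod 5) (c : ZMod 5) (w : List α) : ∀ x : ZMod 5,
    run (aff μ (c • v)) (c * x) w = c * run (aff μ v) x w := by
  induction w with
  | nil => intro x; rfl
  | cons a w ih =>
    intro x
    rw [run_cons, run_cons, ← ih]
    congr 1
    simp only [aff, Pi.smul_apply, smul_eq_mul]
    ring

/-- `GT μ v`: the final state of the affine automaton started at `0` is a good function. -/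
def GT (μ v : α → ZMod 5) : Prop := Good (fun w : List α => run (aff μ v) 0 w)

theorem GT.add {μ v v' : α → ZMod 5} (h : GT μ v) (h' : GT μ v') : GT μ (v + v') := by
  have e : (fun w : List α => run (aff μ (v + v')) 0 w)
      = fun w => run (aff μ v) 0 w + run (aff μ v') 0 w := by
    funext w
    have h1 := run_aff_add μ v v' w 0 0
    rwa [add_zero] at h1
  unfold GT
  rw [e]
  exact Good.add h h'

theorem GT.smul {μ v : α → ZMod 5} (c : ZMod 5) (h : GT μ v) : GT μ (c • v) := by
  have e : (fun w : List α => run (aff μ (c • v)) 0 w) = fun w => c * run (aff μ v) 0 w := by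
    funext w
    have h1 := run_aff_smul μ v c w 0
    rwa [mul_zero] at h1
  unfold GT
  rw [e]
  exact Good.comp h (fun y => c * y)

theorem GT.sub {μ v v' : α → ZMod 5} (h : GT μ v) (h' : GT μ v') : GT μ (v - v') := by
  have e : v - v' = v + (-1 : ZMod 5) • v' := by
    funext a
    simp [sub_eq_add_neg]
  rw [e]
  exact h.add (h'.smul _)

theorem GT.zero (μ : α → ZMod 5) : GT μ 0 := by
  have e : (fun w : List α => run (aff μ 0) 0 w) = fun _ => 0 := by
    funext w
    have h1 := run_aff_smul μ 0 0 w 0
    simpa using h1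
  unfold GT
  rw [e]
  exact Good.const _

theorem GT.sum {μ : α → ZMod 5} {ι : Type} (s : Finset ι) (f : ι → α → ZMod 5)
    (h : ∀ i ∈ s, GT μ (f i)) : GT μ (∑ i ∈ s, f i) := by
  classical
  induction s using Finset.induction_on with
  | empty => simpa using GT.zero μ
  | insert a s ha ih =>
    rw [Finset.sum_insert ha]
    exact (h a (Finset.mem_insert_self a s)).add
      (ih (fun i hi => h i (Finset.mem_insert_of_mem hi)))

/-- A table all of whose maps lie in a list with a counter-free event-free automaton. -/
theorem good_run_of_mem [Fintype α] (S : List (ZMod 5 × ZMod 5))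
    (hcf : CounterFree (kill (aff1 S) (ev1 S))) (μ p : α → ZMod 5)
    (h : ∀ a, (μ a, p a) ∈ S) (x0 : ZMod 5) :
    Good (fun w : List α => run (aff μ p) x0 w) := by
  have hδ : (fun (x : ZMod 5) (a : α) => aff1 S x (μ a, p a)) = aff μ p := by
    funext x a
    simp [aff1, aff, h a]
  have hkill : kill (fun (x : ZMod 5) (a : α) => aff1 S x (μ a, p a))
      (fun (x : ZMod 5) (a : α) => ev1 S x (μ a, p a))
      = fun o a => kill (aff1 S) (ev1 S) o (μ a, p a) := by
    funext o a
    cases o <;> rfl
  have hcf' : CounterFree (kill (fun (x : ZMod 5) (a : α) => aff1 S x (μ a, p a))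
      (fun (x : ZMod 5) (a : α) => ev1 S x (μ a, p a))) := by
    rw [hkill]
    exact CounterFree.comap _ _ hcf
  have hland : ∀ (s : ZMod 5) (c : α), ev1 S s (μ c, p c) = true → aff1 S s (μ c, p c) = 0 := by
    intro s c hc
    simp only [ev1, decide_eq_true_eq] at hc
    simp only [aff1, if_pos hc.1]
    exact hc.2
  have hg := (Good.of_counterfree _ _ 0 hland hcf' 1 x0).comp Prod.fst
  rw [hδ] at hg
  exact hg

section main

variable [Fintype α] (μ : α → ZMod 5) (hμ : ∀ a, μ a = 1 ∨ μ a = 2 ∨ μ a = 3)

/-- The base table for `setA`. -/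
def baseA (μ : α → ZMod 5) (a : α) : ZMod 5 := if μ a = 1 then 0 else if μ a = 2 then 1 else 3

/-- The base table for `setB`. -/
def baseB (μ : α → ZMod 5) (a : α) : ZMod 5 := if μ a = 1 then 0 else if μ a = 2 then 1 else 2

/-- The indicator table of the letters with multiplier `m` and value `t`. -/
def ind (μ v : α → ZMod 5) (m t : ZMod 5) (a : α) : ZMod 5 := if μ a = m ∧ v a = t then 1 else 0

include hμ

theorem GT_baseA : GT μ (baseA μ) := by
  refine good_run_of_mem setA cfA μ _ ?_ 0
  intro a
  rcases hμ a with h | h | h <;> rw [h] <;> simp [baseA, h, setA] <;> decide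

theorem GT_baseB : GT μ (baseB μ) := by
  refine good_run_of_mem setB cfB μ _ ?_ 0
  intro a
  rcases hμ a with h | h | h <;> rw [h] <;> simp [baseB, h, setB] <;> decide

theorem GT_ind_one (v : α → ZMod 5) (t : ZMod 5) : GT μ (ind μ v 1 t) := by
  have h1 : GT μ (fun a => if μ a = 1 ∧ v a = t then 1 else baseA μ a) := by
    refine good_run_of_mem setA cfA μ _ ?_ 0
    intro a
    by_cases hx : μ a = 1 ∧ v a = t
    · rw [if_pos hx, hx.1]
      decide
    · rw [if_neg hx]
      rcases hμ a with h | h | h <;> rw [h] <;> simp [baseA, h, setA] <;> decide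
  have e : ind μ v 1 t = (fun a => if μ a = 1 ∧ v a = t then 1 else baseA μ a) - baseA μ := by
    funext a
    by_cases hx : μ a = 1 ∧ v a = t
    · simp [ind, hx, baseA]
    · simp [ind, hx]
  rw [e]
  exact h1.sub (GT_baseA μ hμ)

theorem GT_ind_two (v : α → ZMod 5) (t : ZMod 5) : GT μ (ind μ v 2 t) := by
  have h1 : GT μ (fun a => if μ a = 2 ∧ v a = t then 4 else baseB μ a) := by
    refine good_run_of_mem setB cfB μ _ ?_ 0
    intro a
    by_cases hx : μ a = 2 ∧ v a = t
    · rw [if_pos hx, hx.1]
      decide
    · rw [if_neg hx]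
      rcases hμ a with h | h | h <;> rw [h] <;> simp [baseB, h, setB] <;> decide
  have e : ind μ v 2 t
      = (2 : ZMod 5) • ((fun a => if μ a = 2 ∧ v a = t then 4 else baseB μ a) - baseB μ) := by
    funext a
    by_cases hx : μ a = 2 ∧ v a = t
    · obtain ⟨hx1, hx2⟩ := hx
      simp only [ind, Pi.smul_apply, Pi.sub_apply, baseB, hx1, hx2, smul_eq_mul, and_self,
        if_true]
      decide
    · simp [ind, hx]
  rw [e]
  exact (h1.sub (GT_baseB μ hμ)).smul 2

theorem GT_ind_three (v : α → ZMod 5) (t : ZMod 5) : GT μ (ind μ v 3 t) := by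
  have h1 : GT μ (fun a => if μ a = 3 ∧ v a = t then 3 else baseB μ a) := by
    refine good_run_of_mem setB cfB μ _ ?_ 0
    intro a
    by_cases hx : μ a = 3 ∧ v a = t
    · rw [if_pos hx, hx.1]
      decide
    · rw [if_neg hx]
      rcases hμ a with h | h | h <;> rw [h] <;> simp [baseB, h, setB] <;> decide
  have e : ind μ v 3 t
      = (fun a => if μ a = 3 ∧ v a = t then 3 else baseB μ a) - baseB μ := by
    funext a
    by_cases hx : μ a = 3 ∧ v a = t
    · obtain ⟨hx1, hx2⟩ := hx
      simp only [ind, Pi.sub_apply, baseB, hx1, hx2, and_self, if_true]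
      decide
    · simp [ind, hx]
  rw [e]
  exact h1.sub (GT_baseB μ hμ)

/-- Every table is good when no multiplier is `0` or `4`. -/
theorem GT_all (v : α → ZMod 5) : GT μ v := by
  have e : v = ∑ t : ZMod 5, t • (ind μ v 1 t + ind μ v 2 t + ind μ v 3 t) := by
    funext a
    rw [Finset.sum_apply]
    simp only [Pi.smul_apply, Pi.add_apply, ind, smul_eq_mul]
    have h12 : (1 : ZMod 5) ≠ 2 := by decide
    have h13 : (1 : ZMod 5) ≠ 3 := by decide
    have h23 : (2 : ZMod 5) ≠ 3 := by decide
    rcases hμ a with h | h | h <;> rw [h] <;>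
      simp [h12, h13, h23, h12.symm, h13.symm, h23.symm]
  rw [e]
  refine GT.sum _ _ (fun t _ => GT.smul t ?_)
  exact ((GT_ind_one μ hμ v t).add (GT_ind_two μ hμ v t)).add (GT_ind_three μ hμ v t)

/-- The product of the multipliers is a good function. -/
theorem good_lam : Good (fun w : List α => run (aff μ 0) 1 w) := by
  have h1 : Good (fun w : List α => run (aff μ (baseA μ)) 1 w) := by
    refine good_run_of_mem setA cfA μ _ ?_ 1
    intro a
    rcases hμ a with h | h | h <;> rw [h] <;> simp [baseA, h, setA] <;> decide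
  have h0 : Good (fun w : List α => run (aff μ (baseA μ)) 0 w) := GT_baseA μ hμ
  have e : (fun w : List α => run (aff μ 0) 1 w)
      = fun w => run (aff μ (baseA μ)) 1 w - run (aff μ (baseA μ)) 0 w := by
    funext w
    have h2 := run_aff_add μ (baseA μ) 0 w 0 1
    rw [add_zero, zero_add] at h2
    rw [h2]
    ring
  rw [e]
  exact h1.sub h0

end main

/-- The product of the matrices of the letters. -/
theorem prod_aff (μ v : α → ZMod 5) (w : List α) :
    (w.map (fun a => !![μ a, 0; v a, 1])).prod
      = !![run (aff μ 0) 1 w, 0; run (aff μ v) 0 w, 1] := by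
  induction w using List.reverseRecOn with
  | nil =>
    simp only [List.map_nil, List.prod_nil, run_nil]
    exact Matrix.one_fin_two
  | append_singleton w a ih =>
    rw [List.map_append, List.prod_append, ih, run_snoc, run_snoc]
    simp only [List.map_cons, List.map_nil, List.prod_cons, List.prod_nil, mul_one,
      Matrix.mul_fin_two, aff, Pi.zero_apply]
    congr 1
    ring_nf

/-- Languages recognized through matrices `!![μ a, 0; v a, 1]` with all `μ a` in `{1, 2, 3}`. -/
theorem f20_no_reflection [Fintype α] (μ v : α → ZMod 5)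
    (hμ : ∀ a, μ a = 1 ∨ μ a = 2 ∨ μ a = 3) (T : Set (Matrix (Fin 2) (Fin 2) (ZMod 5))) :
    HLE 1 ({w : List α | (w.map (fun a => !![μ a, 0; v a, 1])).prod ∈ T} : Language α) := by
  have h1 : Good (fun w : List α => (run (aff μ 0) 1 w, run (aff μ v) 0 w)) :=
    (good_lam μ hμ).pair (GT_all μ hμ v)
  have h2 := (h1.comp (fun p : ZMod 5 × ZMod 5 => (!![p.1, 0; p.2, 1] ∈ T : Prop))).level True
  refine h2.congr ?_
  intro w
  show _ ∈ T ↔ (!![run (aff μ 0) 1 w, 0; run (aff μ v) 0 w, 1] ∈ T) = True
  rw [prod_aff, eq_iff_iff, iff_true]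

end Vale.Agent.Lib.P329.helper28
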