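import Vale.Agent.Lib.P329.helper28.CertTwoA
import Vale.Agent.Lib.P329.helper28.CertTwoB
import Vale.Agent.Lib.P329.helper28.AffOne

/-!
# P329 (helper28): affine automata on `ZMod 5` with one rotation and one reflection

The letters are of three classes: identity, the map `x ↦ m * x + v0` with `m` equal to `2` or
`3`, and the reflection `x ↦ - x + v1`.  The two-layer automaton remembers the parity of the
number of reflections since the last letter of the second class and uses translation parts that
depend on this parity.  Its second coordinate is additive in the translation parts, and the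
constant translation parts `(v0, v0, v1, v1)` are a combination of three parameter vectors for
which the event-free automaton is counter-free.
-/

namespace Vale.Agent.Lib.P329.helper28

open Vale.Agent.Lib.P329 Vale.Agent.Lib.P329.helper24

variable {α : Type}

/-- The two-layer automaton over the alphabet `α`, with the classes of the letters given by `g`. -/
def two' (m : ZMod 5) (g : α → Fin 3) (p q : ZMod 2 → ZMod 5) (z : ZMod 2 × ZMod 5) (c : α) :
    ZMod 2 × ZMod 5 := two m p q z (g c)

theorem two_add (m : ZMod 5) (p p' q q' : ZMod 2 → ZMod 5) (s : ZMod 2) (x x' : ZMod 5)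
    (k : Fin 3) :
    two m (p + p') (q + q') (s, x + x') k
        = ((two m p q (s, x) k).1, (two m p q (s, x) k).2 + (two m p' q' (s, x') k).2) ∧
      (two m p' q' (s, x') k).1 = (two m p q (s, x) k).1 := by
  fin_cases k
  · simp [two]
  · simp [two]
    ring
  · simp [two]
    ring

theorem two_smul (m : ZMod 5) (p q : ZMod 2 → ZMod 5) (c : ZMod 5) (s : ZMod 2) (x : ZMod 5)
    (k : Fin 3) :
    two m (c • p) (c • q) (s, c * x) k
      = ((two m p q (s, x) k).1, c * (two m p q (s, x) k).2) := by
  fin_cases k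
  · simp [two]
  · simp [two]
    ring
  · simp [two]
    ring

theorem run_two_add (m : ZMod 5) (g : α → Fin 3) (p p' q q' : ZMod 2 → ZMod 5) (w : List α) :
    ∀ (s : ZMod 2) (x x' : ZMod 5),
      run (two' m g (p + p') (q + q')) (s, x + x') w
          = ((run (two' m g p q) (s, x) w).1,
              (run (two' m g p q) (s, x) w).2 + (run (two' m g p' q') (s, x') w).2) ∧
        (run (two' m g p' q') (s, x') w).1 = (run (two' m g p q) (s, x) w).1 := by
  induction w with
  | nil => intro s x x'; exact ⟨rfl, rfl⟩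
  | cons c w ih =>
    intro s x x'
    obtain ⟨h1, h2⟩ := two_add m p p' q q' s x x' (g c)
    rw [run_cons, run_cons, run_cons]
    have e1 : two' m g (p + p') (q + q') (s, x + x') c
        = ((two' m g p q (s, x) c).1,
            (two' m g p q (s, x) c).2 + (two' m g p' q' (s, x') c).2) := h1
    have e2 : (two' m g p' q' (s, x') c).1 = (two' m g p q (s, x) c).1 := h2
    rw [e1]
    rcases hz : two' m g p q (s, x) c with ⟨s1, y⟩
    rcases hz' : two' m g p' q' (s, x') c with ⟨s2, y'⟩
    rw [hz, hz'] at e2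
    simp only at e2
    subst e2
    exact ih s2 y y'

theorem run_two_smul (m : ZMod 5) (g : α → Fin 3) (p q : ZMod 2 → ZMod 5) (c : ZMod 5)
    (w : List α) : ∀ (s : ZMod 2) (x : ZMod 5),
      run (two' m g (c • p) (c • q)) (s, c * x) w
        = ((run (two' m g p q) (s, x) w).1, c * (run (two' m g p q) (s, x) w).2) := by
  induction w with
  | nil => intro s x; rfl
  | cons a w ih =>
    intro s x
    have h1 : two' m g (c • p) (c • q) (s, c * x) a
        = ((two' m g p q (s, x) a).1, c * (two' m g p q (s, x) a).2) :=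
      two_smul m p q c s x (g a)
    rw [run_cons, run_cons, h1]
    rcases hz : two' m g p q (s, x) a with ⟨s1, y⟩
    exact ih s1 y

/-- `GT2 m g p q`: the second coordinate of the final state of the two-layer automaton started
at `(0, 0)` is a good function. -/
def GT2 (m : ZMod 5) (g : α → Fin 3) (p q : ZMod 2 → ZMod 5) : Prop :=
  Good (fun w : List α => (run (two' m g p q) (0, 0) w).2)

theorem GT2.add {m : ZMod 5} {g : α → Fin 3} {p p' q q' : ZMod 2 → ZMod 5}
    (h : GT2 m g p q) (h' : GT2 m g p' q') : GT2 m g (p + p') (q + q') := by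
  have e : (fun w : List α => (run (two' m g (p + p') (q + q')) (0, 0) w).2)
      = fun w => (run (two' m g p q) (0, 0) w).2 + (run (two' m g p' q') (0, 0) w).2 := by
    funext w
    have h1 := (run_two_add m g p p' q q' w 0 0 0).1
    rw [add_zero] at h1
    rw [h1]
  unfold GT2
  rw [e]
  exact Good.add h h'

theorem GT2.smul {m : ZMod 5} {g : α → Fin 3} {p q : ZMod 2 → ZMod 5} (c : ZMod 5)
    (h : GT2 m g p q) : GT2 m g (c • p) (c • q) := by
  have e : (fun w : List α => (run (two' m g (c • p) (c • q)) (0, 0) w).2)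
      = fun w => c * (run (two' m g p q) (0, 0) w).2 := by
    funext w
    have h1 := run_two_smul m g p q c w 0 0
    rw [mul_zero] at h1
    rw [h1]
  unfold GT2
  rw [e]
  exact Good.comp h (fun y => c * y)

/-- Parameters with a counter-free event-free automaton. -/
theorem good_two [Fintype α] (m : ZMod 5) (p q : ZMod 2 → ZMod 5)
    (hcf : CounterFree (kill (two m p q) (ev2 m p q))) (g : α → Fin 3) (z0 : ZMod 2 × ZMod 5) :
    Good (fun w : List α => run (two' m g p q) z0 w) := by
  have hkill : kill (two' m g p q) (fun (z : ZMod 2 × ZMod 5) (c : α) => ev2 m p q z (g c))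
      = fun o c => kill (two m p q) (ev2 m p q) o (g c) := by
    funext o c
    cases o <;> rfl
  have hcf' : CounterFree (kill (two' m g p q)
      (fun (z : ZMod 2 × ZMod 5) (c : α) => ev2 m p q z (g c))) := by
    rw [hkill]
    exact CounterFree.comap _ _ hcf
  have hland : ∀ (z : ZMod 2 × ZMod 5) (c : α), ev2 m p q z (g c) = true →
      two' m g p q z c = (0, 0) := by
    intro z c hc
    simp only [ev2, decide_eq_true_eq] at hc
    exact hc.2
  exact (Good.of_counterfree _ _ (0, 0) hland hcf' 1 z0).comp Prod.fst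

/-- The multiplier of a letter of class `g c`. -/
def mu2 (m : ZMod 5) (g : α → Fin 3) (c : α) : ZMod 5 :=
  if g c = 0 then 1 else if g c = 1 then m else 4

/-- The translation part of a letter of class `g c`. -/
def tr2 (g : α → Fin 3) (v0 v1 : ZMod 5) (c : α) : ZMod 5 :=
  if g c = 0 then 0 else if g c = 1 then v0 else v1

theorem two_const (m v0 v1 : ZMod 5) (z : ZMod 2 × ZMod 5) (k : Fin 3) :
    (two m (fun _ => v0) (fun _ => v1) z k).2
      = (if k = 0 then 1 else if k = 1 then m else 4) * z.2
        + (if k = 0 then 0 else if k = 1 then v0 else v1) := by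
  have h4 : ∀ y : ZMod 5, -y = 4 * y := by decide
  fin_cases k
  · simp [two]
  · simp [two]
  · simp [two, h4]

theorem run_two_const (m : ZMod 5) (g : α → Fin 3) (v0 v1 : ZMod 5) (w : List α) :
    ∀ z : ZMod 2 × ZMod 5, (run (two' m g (fun _ => v0) (fun _ => v1)) z w).2
      = run (aff (mu2 m g) (tr2 g v0 v1)) z.2 w := by
  induction w with
  | nil => intro z; rfl
  | cons c w ih =>
    intro z
    rw [run_cons, run_cons, ih]
    congr 1
    exact two_const m v0 v1 z (g c)

theorem tab_two : ∀ (v0 v1 : ZMod 5) (s : ZMod 2),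
    v0 = (3 * v0 + 4 * v1) * tab 1 0 s + (3 * v0 + 3 * v1) * tab 1 2 s + (3 * v1) * tab 1 3 s ∧
    v1 = (3 * v0 + 4 * v1) * tab 4 0 s + (3 * v0 + 3 * v1) * tab 1 0 s + (3 * v1) * tab 4 2 s := by
  decide

theorem tab_three : ∀ (v0 v1 : ZMod 5) (s : ZMod 2),
    v0 = (4 * v0 + 4 * v1) * tab 1 0 s + (3 * v1) * tab 1 2 s + (2 * v0 + 3 * v1) * tab 1 3 s ∧
    v1 = (4 * v0 + 4 * v1) * tab 4 1 s + (3 * v1) * tab 3 1 s + (2 * v0 + 3 * v1) * tab 2 3 s := by
  decide

section main

variable [Fintype α] (g : α → Fin 3)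

theorem GT2_two (v0 v1 : ZMod 5) : GT2 2 g (fun _ => v0) (fun _ => v1) := by
  have e1 : (fun _ : ZMod 2 => v0) = (3 * v0 + 4 * v1) • tab 1 0 + (3 * v0 + 3 * v1) • tab 1 2
      + (3 * v1) • tab 1 3 := by
    funext s
    exact (tab_two v0 v1 s).1
  have e2 : (fun _ : ZMod 2 => v1) = (3 * v0 + 4 * v1) • tab 4 0 + (3 * v0 + 3 * v1) • tab 1 0
      + (3 * v1) • tab 4 2 := by
    funext s
    exact (tab_two v0 v1 s).2
  rw [e1, e2]
  have ha : GT2 2 g (tab 1 0) (tab 4 0) := (good_two 2 _ _ cf2a g (0, 0)).comp Prod.snd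
  have hb : GT2 2 g (tab 1 2) (tab 1 0) := (good_two 2 _ _ cf2b g (0, 0)).comp Prod.snd
  have hc : GT2 2 g (tab 1 3) (tab 4 2) := (good_two 2 _ _ cf2c g (0, 0)).comp Prod.snd
  exact ((ha.smul _).add (hb.smul _)).add (hc.smul _)

theorem GT2_three (v0 v1 : ZMod 5) : GT2 3 g (fun _ => v0) (fun _ => v1) := by
  have e1 : (fun _ : ZMod 2 => v0) = (4 * v0 + 4 * v1) • tab 1 0 + (3 * v1) • tab 1 2
      + (2 * v0 + 3 * v1) • tab 1 3 := by
    funext s
    exact (tab_three v0 v1 s).1
  have e2 : (fun _ : ZMod 2 => v1) = (4 * v0 + 4 * v1) • tab 4 1 + (3 * v1) • tab 3 1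
      + (2 * v0 + 3 * v1) • tab 2 3 := by
    funext s
    exact (tab_three v0 v1 s).2
  rw [e1, e2]
  have ha : GT2 3 g (tab 1 0) (tab 4 1) := (good_two 3 _ _ cf3a g (0, 0)).comp Prod.snd
  have hb : GT2 3 g (tab 1 2) (tab 3 1) := (good_two 3 _ _ cf3b g (0, 0)).comp Prod.snd
  have hc : GT2 3 g (tab 1 3) (tab 2 3) := (good_two 3 _ _ cf3c g (0, 0)).comp Prod.snd
  exact ((ha.smul _).add (hb.smul _)).add (hc.smul _)

/-- The product of the multipliers, from one valid parameter vector and two initial states. -/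
theorem good_lam_two (m : ZMod 5) (p q : ZMod 2 → ZMod 5)
    (hcf : CounterFree (kill (two m p q) (ev2 m p q))) :
    Good (fun w : List α => run (aff (mu2 m g) 0) 1 w) := by
  have h1 : Good (fun w : List α => (run (two' m g p q) (0, 1) w).2) :=
    (good_two m p q hcf g (0, 1)).comp Prod.snd
  have h0 : Good (fun w : List α => (run (two' m g p q) (0, 0) w).2) :=
    (good_two m p q hcf g (0, 0)).comp Prod.snd
  have e : (fun w : List α => run (aff (mu2 m g) 0) 1 w)
      = fun w => (run (two' m g p q) (0, 1) w).2 - (run (two' m g p q) (0, 0) w).2 := by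
    funext w
    have h2 := (run_two_add m g p (fun _ => 0) q (fun _ => 0) w 0 0 1).1
    have h3 := run_two_const m g 0 0 w (0, 1)
    have hp : p + (fun _ => (0 : ZMod 5)) = p := by funext s; simp
    have hq : q + (fun _ => (0 : ZMod 5)) = q := by funext s; simp
    have ht : tr2 g 0 0 = 0 := by
      funext c
      simp [tr2]
    rw [hp, hq, zero_add] at h2
    rw [ht] at h3
    rw [h2, h3]
    simp
  rw [e]
  exact h1.sub h0

/-- Languages recognized through the identity, one matrix `!![m, 0; v0, 1]` with `m` equal to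
`2` or `3`, and one matrix `!![4, 0; v1, 1]`. -/
theorem f20_two (m : ZMod 5) (hm : m = 2 ∨ m = 3) (v0 v1 : ZMod 5)
    (T : Set (Matrix (Fin 2) (Fin 2) (ZMod 5))) :
    HLE 1 ({w : List α | (w.map (fun c => !![mu2 m g c, 0; tr2 g v0 v1 c, 1])).prod ∈ T} :
      Language α) := by
  have hlam : Good (fun w : List α => run (aff (mu2 m g) 0) 1 w) := by
    rcases hm with rfl | rfl
    · exact good_lam_two g 2 _ _ cf2a
    · exact good_lam_two g 3 _ _ cf3a
  have htau : Good (fun w : List α => run (aff (mu2 m g) (tr2 g v0 v1)) 0 w) := by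
    have h1 : GT2 m g (fun _ => v0) (fun _ => v1) := by
      rcases hm with rfl | rfl
      · exact GT2_two g v0 v1
      · exact GT2_three g v0 v1
    have e : (fun w : List α => run (aff (mu2 m g) (tr2 g v0 v1)) 0 w)
        = fun w => (run (two' m g (fun _ => v0) (fun _ => v1)) (0, 0) w).2 := by
      funext w
      exact (run_two_const m g v0 v1 w (0, 0)).symm
    rw [e]
    exact h1
  have h2 := ((hlam.pair htau).comp
    (fun p : ZMod 5 × ZMod 5 => (!![p.1, 0; p.2, 1] ∈ T : Prop))).level True
  refine h2.congr ?_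
  intro w
  show _ ∈ T ↔ (!![run (aff (mu2 m g) 0) 1 w, 0; run (aff (mu2 m g) (tr2 g v0 v1)) 0 w, 1] ∈ T)
    = True
  rw [prod_aff, eq_iff_iff, iff_true]

end main

end Vale.Agent.Lib.P329.helper28
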