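import Vale.Agent.Lib.P329.helper24.BlockCF

/-!
# P329 (helper28): counter-freeness from an explicit list of transformations

The states of an automaton are numbered by an injective map `idx` into the natural numbers below
`n`; a transformation of the states is stored as the list of the images of `0, ..., n - 1`.
If a list `M` of such transformations contains the identity, is closed under composition with the
transformations of the letters, and each of its members `f` satisfies `f^(n+1) = f^n`, then the
automaton is counter-free.
-/

namespace Vale.Agent.Lib.P329.helper28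

open Vale.Agent.Lib.P329 Vale.Agent.Lib.P329.helper24

/-- The value at `i` of the transformation stored in the list `f`, with default value `d`. -/
def lact (d : ℕ) (f : List ℕ) (i : ℕ) : ℕ := f.getD i d

theorem lact_range (d n i : ℕ) (h : i < n) : lact d (List.range n) i = i := by
  unfold lact
  rw [List.getD_eq_getElem _ _ (by simpa using h)]
  simp

theorem lact_map (d : ℕ) (f g : List ℕ) (hg : lact d g d = d) (i : ℕ) :
    lact d (f.map (lact d g)) i = lact d g (lact d f i) := by
  unfold lact at *
  have h := List.getD_map (f := fun j => g.getD j d) (l := f) (n := i) (d := d)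
  rw [hg] at h
  exact h

theorem counterFree_of_cert {S β : Type} (δ : S → β → S) (n d : ℕ) (idx : S → ℕ)
    (hidx : Function.Injective idx) (hn : ∀ s, idx s < n)
    (M G : List (List ℕ))
    (hG : ∀ c : β, ∃ g ∈ G, ∀ s, idx (δ s c) = lact d g (idx s))
    (hid : List.range n ∈ M)
    (hfix : ∀ g ∈ G, lact d g d = d)
    (hclosed : ∀ f ∈ M, ∀ g ∈ G, f.map (lact d g) ∈ M)
    (haper : ∀ f ∈ M, ∀ i ∈ List.range n, (lact d f)^[n + 1] i = (lact d f)^[n] i) :
    CounterFree δ := by
  have key : ∀ u : List β, ∃ f ∈ M, ∀ s, idx (run δ s u) = lact d f (idx s) := by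
    intro u
    induction u using List.reverseRecOn with
    | nil =>
      refine ⟨List.range n, hid, fun s => ?_⟩
      rw [lact_range d n _ (hn s)]
      rfl
    | append_singleton u c ih =>
      obtain ⟨f, hf, hfu⟩ := ih
      obtain ⟨g, hg, hgc⟩ := hG c
      refine ⟨f.map (lact d g), hclosed f hf g hg, fun s => ?_⟩
      rw [run_append, lact_map d f g (hfix g hg), ← hfu s]
      exact hgc _
  intro u
  obtain ⟨f, hf, hfu⟩ := key u
  refine ⟨n, fun s => ?_⟩
  have hit : ∀ k : ℕ, ∀ t : S, idx ((fun t => run δ t u)^[k] t) = (lact d f)^[k] (idx t) := by
    intro k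
    induction k with
    | zero => intro t; rfl
    | succ k ih =>
      intro t
      rw [Function.iterate_succ_apply', Function.iterate_succ_apply', hfu, ih]
  apply hidx
  rw [cf_run_rep, cf_run_rep, hit, hit]
  exact haper f hf (idx s) (List.mem_range.2 (hn s))

/-- A property of all members of a list follows from the same property on consecutive blocks of
`c` members. -/
theorem forall_mem_of_chunks {α : Type} (P : α → Prop) (l : List α) (c k : ℕ) (hc : 0 < c)
    (hk : l.length ≤ c * k) (h : ∀ j < k, ∀ x ∈ (l.drop (c * j)).take c, P x) :
    ∀ x ∈ l, P x := by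
  intro x hx
  obtain ⟨i, hi, rfl⟩ := List.getElem_of_mem hx
  have hj : i / c < k := by
    apply Nat.div_lt_of_lt_mul
    omega
  apply h (i / c) hj
  have hmod : i % c < c := Nat.mod_lt _ hc
  have hsum : c * (i / c) + i % c = i := Nat.div_add_mod i c
  have hlen : i % c < ((l.drop (c * (i / c))).take c).length := by
    rw [List.length_take, List.length_drop]
    omega
  have : ((l.drop (c * (i / c))).take c)[i % c] = l[i] := by
    rw [List.getElem_take, List.getElem_drop]
    congr 1
  rw [← this]
  exact List.getElem_mem hlen

end Vale.Agent.Lib.P329.helper28
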