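import Vale.Agent.Lib.P329.helper28.CertFour

/-!
# P329 (helper28): counter-free automata on four states with flagged letters

The letters are the pairs of a map `f : Fin 4 → Fin 4` and a flag.  A flagged letter acts as the
identity; a letter without flag whose list of values `code f` belongs to the list `S` acts as
`f`, every other letter as the identity.  For a state `u` there are two sets of events: all the
transitions that lead to `u`, and those of them whose letter has no flag.  For the three lists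
`linS u` (the permutations of `1, 2, 3` other than the transposition that fixes `u`) and for the
empty list, the automaton without its events is counter-free; this is checked on the full list
of the transformations of the five states `0, ..., 3` and the sink `4`.
-/

namespace Vale.Agent.Lib.P329.helper28

open Vale.Agent.Lib.P329 Vale.Agent.Lib.P329.helper24

/-- The automaton of the maps listed in `S`; a flagged letter acts as the identity. -/
def autM (S : List (List ℕ)) (i : Fin 4) (c : (Fin 4 → Fin 4) × Bool) : Fin 4 :=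
  if c.2 = true then i else if code c.1 ∈ S then c.1 i else i

/-- The events of the first kind: the transitions that lead to `u`. -/
def evA (u : Fin 4) (S : List (List ℕ)) (i : Fin 4) (c : (Fin 4 → Fin 4) × Bool) : Bool :=
  decide (autM S i c = u)

/-- The events of the second kind: the transitions that lead to `u` by a letter without flag. -/
def evB (u : Fin 4) (S : List (List ℕ)) (i : Fin 4) (c : (Fin 4 → Fin 4) × Bool) : Bool :=
  decide (autM S i c = u ∧ c.2 = false)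

/-- The permutations of `1, 2, 3` other than the transposition that fixes `u`. -/
def linS : Fin 4 → List (List ℕ)
  | 0 => []
  | 1 => [[0, 1, 2, 3], [0, 2, 1, 3], [0, 3, 2, 1], [0, 2, 3, 1], [0, 3, 1, 2]]
  | 2 => [[0, 1, 2, 3], [0, 2, 1, 3], [0, 1, 3, 2], [0, 2, 3, 1], [0, 3, 1, 2]]
  | 3 => [[0, 1, 2, 3], [0, 3, 2, 1], [0, 1, 3, 2], [0, 2, 3, 1], [0, 3, 1, 2]]

def genA1 : List (List ℕ) := [
  [0, 4, 2, 3, 4], [0, 2, 4, 3, 4], [0, 2, 3, 4, 4], [0, 3, 4, 2, 4], [0, 3, 2, 4, 4]]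

def monA1 : List (List ℕ) := [
  [0, 1, 2, 3, 4], [0, 4, 2, 3, 4], [0, 2, 4, 3, 4], [0, 2, 3, 4, 4], [0, 3, 4, 2, 4], [0, 3, 2, 4, 4],
  [0, 4, 4, 3, 4], [0, 4, 3, 4, 4], [0, 4, 4, 2, 4], [0, 4, 2, 4, 4], [0, 3, 4, 4, 4], [0, 2, 4, 4, 4],
  [0, 4, 4, 4, 4]]

theorem cfA1 : CounterFree (kill (autM (linS 1)) (evA 1 (linS 1))) := by
  refine counterFree_of_cert _ 5 4 idx4 idx4_inj idx4_lt monA1 genA1 ?_ ?_ ?_ ?_ ?_
  · decide +kernel
  · decide +kernel
  · decide +kernel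
  · decide +kernel
  · decide +kernel

def genB1 : List (List ℕ) := [
  [0, 4, 2, 3, 4], [0, 1, 2, 3, 4], [0, 2, 4, 3, 4], [0, 2, 3, 4, 4], [0, 3, 4, 2, 4], [0, 3, 2, 4, 4]]

def monB1 : List (List ℕ) := [
  [0, 1, 2, 3, 4], [0, 4, 2, 3, 4], [0, 2, 4, 3, 4], [0, 2, 3, 4, 4], [0, 3, 4, 2, 4], [0, 3, 2, 4, 4],
  [0, 4, 4, 3, 4], [0, 4, 3, 4, 4], [0, 4, 4, 2, 4], [0, 4, 2, 4, 4], [0, 3, 4, 4, 4], [0, 2, 4, 4, 4],
  [0, 4, 4, 4, 4]]

theorem cfB1 : CounterFree (kill (autM (linS 1)) (evB 1 (linS 1))) := by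
  refine counterFree_of_cert _ 5 4 idx4 idx4_inj idx4_lt monB1 genB1 ?_ ?_ ?_ ?_ ?_
  · decide +kernel
  · decide +kernel
  · decide +kernel
  · decide +kernel
  · decide +kernel

def genA2 : List (List ℕ) := [
  [0, 1, 4, 3, 4], [0, 1, 3, 4, 4], [0, 4, 1, 3, 4], [0, 4, 3, 1, 4], [0, 3, 1, 4, 4]]

def monA2 : List (List ℕ) := [
  [0, 1, 2, 3, 4], [0, 1, 4, 3, 4], [0, 1, 3, 4, 4], [0, 4, 1, 3, 4], [0, 4, 3, 1, 4], [0, 3, 1, 4, 4],
  [0, 1, 4, 4, 4], [0, 4, 4, 3, 4], [0, 4, 4, 1, 4], [0, 3, 4, 4, 4], [0, 4, 3, 4, 4], [0, 4, 1, 4, 4],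
  [0, 4, 4, 4, 4]]

theorem cfA2 : CounterFree (kill (autM (linS 2)) (evA 2 (linS 2))) := by
  refine counterFree_of_cert _ 5 4 idx4 idx4_inj idx4_lt monA2 genA2 ?_ ?_ ?_ ?_ ?_
  · decide +kernel
  · decide +kernel
  · decide +kernel
  · decide +kernel
  · decide +kernel

def genB2 : List (List ℕ) := [
  [0, 1, 4, 3, 4], [0, 1, 2, 3, 4], [0, 1, 3, 4, 4], [0, 4, 1, 3, 4], [0, 4, 3, 1, 4], [0, 3, 1, 4, 4]]

def monB2 : List (List ℕ) := [
  [0, 1, 2, 3, 4], [0, 1, 4, 3, 4], [0, 1, 3, 4, 4], [0, 4, 1, 3, 4], [0, 4, 3, 1, 4], [0, 3, 1, 4, 4],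
  [0, 1, 4, 4, 4], [0, 4, 4, 3, 4], [0, 4, 4, 1, 4], [0, 3, 4, 4, 4], [0, 4, 3, 4, 4], [0, 4, 1, 4, 4],
  [0, 4, 4, 4, 4]]

theorem cfB2 : CounterFree (kill (autM (linS 2)) (evB 2 (linS 2))) := by
  refine counterFree_of_cert _ 5 4 idx4 idx4_inj idx4_lt monB2 genB2 ?_ ?_ ?_ ?_ ?_
  · decide +kernel
  · decide +kernel
  · decide +kernel
  · decide +kernel
  · decide +kernel

def genA3 : List (List ℕ) := [
  [0, 1, 2, 4, 4], [0, 1, 4, 2, 4], [0, 2, 4, 1, 4], [0, 4, 1, 2, 4], [0, 4, 2, 1, 4]]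

def monA3 : List (List ℕ) := [
  [0, 1, 2, 3, 4], [0, 1, 2, 4, 4], [0, 1, 4, 2, 4], [0, 2, 4, 1, 4], [0, 4, 1, 2, 4], [0, 4, 2, 1, 4],
  [0, 1, 4, 4, 4], [0, 2, 4, 4, 4], [0, 4, 1, 4, 4], [0, 4, 2, 4, 4], [0, 4, 4, 1, 4], [0, 4, 4, 2, 4],
  [0, 4, 4, 4, 4]]

theorem cfA3 : CounterFree (kill (autM (linS 3)) (evA 3 (linS 3))) := by
  refine counterFree_of_cert _ 5 4 idx4 idx4_inj idx4_lt monA3 genA3 ?_ ?_ ?_ ?_ ?_
  · decide +kernel
  · decide +kernel
  · decide +kernel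
  · decide +kernel
  · decide +kernel

def genB3 : List (List ℕ) := [
  [0, 1, 2, 4, 4], [0, 1, 2, 3, 4], [0, 1, 4, 2, 4], [0, 2, 4, 1, 4], [0, 4, 1, 2, 4], [0, 4, 2, 1, 4]]

def monB3 : List (List ℕ) := [
  [0, 1, 2, 3, 4], [0, 1, 2, 4, 4], [0, 1, 4, 2, 4], [0, 2, 4, 1, 4], [0, 4, 1, 2, 4], [0, 4, 2, 1, 4],
  [0, 1, 4, 4, 4], [0, 2, 4, 4, 4], [0, 4, 1, 4, 4], [0, 4, 2, 4, 4], [0, 4, 4, 1, 4], [0, 4, 4, 2, 4],
  [0, 4, 4, 4, 4]]

theorem cfB3 : CounterFree (kill (autM (linS 3)) (evB 3 (linS 3))) := by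
  refine counterFree_of_cert _ 5 4 idx4 idx4_inj idx4_lt monB3 genB3 ?_ ?_ ?_ ?_ ?_
  · decide +kernel
  · decide +kernel
  · decide +kernel
  · decide +kernel
  · decide +kernel

def genA0 : List (List ℕ) := [
  [0, 4, 2, 3, 4]]

def monA0 : List (List ℕ) := [
  [0, 1, 2, 3, 4], [0, 4, 2, 3, 4]]

theorem cfA0 : CounterFree (kill (autM []) (evA 1 [])) := by
  refine counterFree_of_cert _ 5 4 idx4 idx4_inj idx4_lt monA0 genA0 ?_ ?_ ?_ ?_ ?_
  · decide +kernel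
  · decide +kernel
  · decide +kernel
  · decide +kernel
  · decide +kernel

def genB0 : List (List ℕ) := [
  [0, 4, 2, 3, 4], [0, 1, 2, 3, 4]]

def monB0 : List (List ℕ) := [
  [0, 1, 2, 3, 4], [0, 4, 2, 3, 4]]

theorem cfB0 : CounterFree (kill (autM []) (evB 1 [])) := by
  refine counterFree_of_cert _ 5 4 idx4 idx4_inj idx4_lt monB0 genB0 ?_ ?_ ?_ ?_ ?_
  · decide +kernel
  · decide +kernel
  · decide +kernel
  · decide +kernel
  · decide +kernel

theorem cfA_lin : ∀ u : Fin 4, u ≠ 0 → CounterFree (kill (autM (linS u)) (evA u (linS u))) := by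
  intro u hu
  fin_cases u
  · exact absurd rfl hu
  · exact cfA1
  · exact cfA2
  · exact cfA3

theorem cfB_lin : ∀ u : Fin 4, u ≠ 0 → CounterFree (kill (autM (linS u)) (evB u (linS u))) := by
  intro u hu
  fin_cases u
  · exact absurd rfl hu
  · exact cfB1
  · exact cfB2
  · exact cfB3

end Vale.Agent.Lib.P329.helper28
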