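import Mathlib
import Vale.Agent.Lib.P329.helper24.SmallA

/-!
# P329 (helper28): groups of order twenty without nontrivial central elements

Such a group is a semidirect product of its Sylow 5-subgroup `P = ⟨z⟩` by a Sylow 2-subgroup
`H`, and `H` acts faithfully on `P`.  Writing every element uniquely as `h * z ^ k` with `h` in
`H`, the maps `μ` (`g⁻¹ * z * g = z ^ μ g`) and `v` (`v g = k`) satisfy
`μ (g * h) = μ g * μ h` and `v (g * h) = v g * μ h + v h`, and `(μ, v)` is injective: the group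
embeds into the group of the matrices `!![m, 0; t, 1]` over `ZMod 5`.
-/

namespace Vale.Agent.Lib.P329.helper28

open Subgroup

theorem frob20_embed {G : Type} [Group G] [Finite G] (hG : Nat.card G = 20)
    (hz : ∀ c : G, (∀ g : G, g * c = c * g) → c = 1) :
    ∃ μ v : G → ZMod 5, (∀ g, μ g ≠ 0) ∧ (∀ g h, μ (g * h) = μ g * μ h) ∧
      (∀ g h, v (g * h) = v g * μ h + v h) ∧ (∀ g h, μ g = μ h → v g = v h → g = h) := by
  classical
  have h5 : Fact (Nat.Prime 5) := ⟨by norm_num⟩
  have h2 : Fact (Nat.Prime 2) := ⟨Nat.prime_two⟩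
  -- the Sylow 5-subgroup
  obtain ⟨P⟩ : Nonempty (Sylow 5 G) := inferInstance
  have hPcard : Nat.card P = 5 := by
    rw [Sylow.card_eq_multiplicity, hG]
    have h1 : (20 : ℕ).factorization 5 = 1 := by
      have h20 : (20 : ℕ) = 2 ^ 2 * 5 := by norm_num
      rw [h20, Nat.factorization_mul (by norm_num) (by norm_num), Nat.factorization_pow]
      have h4 : (2 : ℕ).factorization 5 = 0 :=
        Nat.factorization_eq_zero_of_not_dvd (by norm_num)
      have h6 : (5 : ℕ).factorization 5 = 1 := (show Nat.Prime 5 by norm_num).factorization_self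
      simp [h6, h4]
    rw [h1]
    norm_num
  have hidx : (P : Subgroup G).index = 4 := by
    have h1 := (P : Subgroup G).card_mul_index
    rw [hPcard, hG] at h1
    omega
  have hn5 : Nat.card (Sylow 5 G) = 1 := by
    have h1 : Nat.card (Sylow 5 G) ∣ 4 := by
      have := P.card_dvd_index
      rwa [hidx] at this
    have h4 := card_sylow_modEq_one 5 G
    have h6 : Nat.card (Sylow 5 G) ≤ 4 := Nat.le_of_dvd (by norm_num) h1
    unfold Nat.ModEq at h4
    generalize Nat.card (Sylow 5 G) = n at *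
    interval_cases n <;> simp_all
  have hsub : Subsingleton (Sylow 5 G) := (Nat.card_eq_one_iff_unique.1 hn5).1
  have hn : (P : Subgroup G).Normal := Sylow.normal_of_subsingleton P
  -- a Sylow 2-subgroup
  obtain ⟨H⟩ : Nonempty (Sylow 2 G) := inferInstance
  have hHcard : Nat.card H = 4 := by
    rw [Sylow.card_eq_multiplicity, hG]
    have h1 : (20 : ℕ).factorization 2 = 2 := by
      have h20 : (20 : ℕ) = 2 ^ 2 * 5 := by norm_num
      rw [h20, Nat.factorization_mul (by norm_num) (by norm_num), Nat.factorization_pow]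
      have h4 : (5 : ℕ).factorization 2 = 0 :=
        Nat.factorization_eq_zero_of_not_dvd (by norm_num)
      have h6 : (2 : ℕ).factorization 2 = 1 := Nat.prime_two.factorization_self
      simp [h6, h4]
    rw [h1]
    norm_num
  have hHcomm : ∀ a ∈ (H : Subgroup G), ∀ b ∈ (H : Subgroup G), a * b = b * a :=
    helper24.comm_of_card_prime_sq (H : Subgroup G) 2 Nat.prime_two (by rw [hHcard]; norm_num)
  have hcompl : IsComplement' (H : Subgroup G) (P : Subgroup G) :=
    isComplement'_of_coprime (by rw [hHcard, hPcard, hG]) (by rw [hHcard, hPcard]; norm_num)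
  -- a generator of `P`
  obtain ⟨z, hzP, hz1⟩ : ∃ z ∈ (P : Subgroup G), z ≠ 1 := by
    by_contra hcon
    push Not at hcon
    have hbot : (P : Subgroup G) = ⊥ := by
      rw [eq_bot_iff]
      intro x hx
      rw [Subgroup.mem_bot]
      exact hcon x hx
    rw [hbot] at hPcard
    simp at hPcard
  have hord : orderOf z = 5 := by
    have h1 : orderOf z ∣ 5 := by
      have h3 := orderOf_dvd_natCard (⟨z, hzP⟩ : (P : Subgroup G))
      rw [hPcard] at h3
      rwa [Subgroup.orderOf_mk] at h3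
    rcases (Nat.dvd_prime (by norm_num)).1 h1 with h | h
    · exact absurd (orderOf_eq_one_iff.1 h) hz1
    · exact h
  -- the parametrization of `P`
  set e : ZMod 5 → G := fun k => z ^ k.val with he
  have he_nat : ∀ n : ℕ, e (n : ZMod 5) = z ^ n := by
    intro n
    simp only [he, ZMod.val_natCast]
    rw [← hord]
    exact pow_mod_orderOf z n
  have he_add : ∀ a b : ZMod 5, e (a + b) = e a * e b := by
    intro a b
    have h1 : (a + b) = ((a.val + b.val : ℕ) : ZMod 5) := by simp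
    rw [h1, he_nat, pow_add]
  have he_mul : ∀ a b : ZMod 5, e (a * b) = (e a) ^ b.val := by
    intro a b
    have h1 : (a * b) = ((a.val * b.val : ℕ) : ZMod 5) := by simp
    rw [h1, he_nat, pow_mul]
  have he_inj : Function.Injective e := by
    intro a b hab
    have h1 : a.val ≡ b.val [MOD orderOf z] := pow_eq_pow_iff_modEq.1 hab
    rw [hord] at h1
    exact ZMod.val_injective 5 (Nat.ModEq.eq_of_lt_of_lt h1 (ZMod.val_lt a) (ZMod.val_lt b))
  have he_mem : ∀ k, e k ∈ (P : Subgroup G) := fun k => Subgroup.pow_mem _ hzP _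
  have he_surj : ∀ y ∈ (P : Subgroup G), ∃ k : ZMod 5, e k = y := by
    intro y hy
    have hmem : (⟨y, hy⟩ : (P : Subgroup G)) ∈ Submonoid.powers (⟨z, hzP⟩ : (P : Subgroup G)) :=
      mem_powers_of_prime_card hPcard (by intro h; exact hz1 (congrArg Subtype.val h))
    obtain ⟨n, hn'⟩ := hmem
    refine ⟨(n : ZMod 5), ?_⟩
    rw [he_nat]
    have h3 := congrArg Subtype.val hn'
    simpa using h3
  have he_one : e 1 = z := by
    simp [he, ZMod.val_one]
  have he_zero : e 0 = 1 := by
    simp [he]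
  have hcp : ∀ (h a : G) (n : ℕ), (h⁻¹ * a * h) ^ n = h⁻¹ * a ^ n * h := by
    intro h a n
    have h3 := conj_pow (a := h⁻¹) (b := a) (i := n)
    simpa using h3
  -- the multiplier
  have hconj : ∀ g : G, ∃ m : ZMod 5, g⁻¹ * z * g = e m := by
    intro g
    have h1 : g⁻¹ * z * g ∈ (P : Subgroup G) := by
      have h3 := hn.conj_mem z hzP g⁻¹
      simpa using h3
    obtain ⟨m, hm⟩ := he_surj _ h1
    exact ⟨m, hm.symm⟩
  choose μ hμ using hconj
  have hμ_mul : ∀ g h, μ (g * h) = μ g * μ h := by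
    intro g h
    apply he_inj
    rw [mul_comm (μ g) (μ h), he_mul, ← hμ, ← hμ h]
    have h1 : (g * h)⁻¹ * z * (g * h) = h⁻¹ * (g⁻¹ * z * g) * h := by group
    rw [h1, hμ g]
    simp only [he]
    rw [hcp]
  have hμ_ne : ∀ g, μ g ≠ 0 := by
    intro g h0
    have h1 := hμ g
    rw [h0, he_zero] at h1
    apply hz1
    have h3 : z = g * (g⁻¹ * z * g) * g⁻¹ := by group
    rw [h3, h1]
    group
  have hμ_e : ∀ k, μ (e k) = 1 := by
    intro k
    apply he_inj
    rw [← hμ, he_one]
    simp only [he]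
    have h1 : Commute (z ^ k.val) z := (Commute.refl z).pow_left _
    calc (z ^ k.val)⁻¹ * z * z ^ k.val = (z ^ k.val)⁻¹ * (z * z ^ k.val) := by group
      _ = (z ^ k.val)⁻¹ * (z ^ k.val * z) := by rw [h1.eq]
      _ = z := by group
  -- the decomposition
  have hdec : ∀ g : G, ∃ h ∈ (H : Subgroup G), ∃ k : ZMod 5, g = h * e k := by
    intro g
    obtain ⟨⟨x, y⟩, hxy, -⟩ := hcompl.existsUnique g
    obtain ⟨k, hk⟩ := he_surj y.1 y.2
    exact ⟨x.1, x.2, k, by rw [hk]; exact hxy.symm⟩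
  have huniq : ∀ h ∈ (H : Subgroup G), ∀ h' ∈ (H : Subgroup G), ∀ k k' : ZMod 5,
      h * e k = h' * e k' → h = h' ∧ k = k' := by
    intro h hh h' hh' k k' heq
    have hinj := hcompl.1
    have h3 := @hinj (⟨h, hh⟩, ⟨e k, he_mem k⟩) (⟨h', hh'⟩, ⟨e k', he_mem k'⟩) heq
    simp only [Prod.mk.injEq, Subtype.mk.injEq] at h3
    exact ⟨h3.1, he_inj h3.2⟩
  choose hp hpH vv hvv using hdec
  have hμ_hp : ∀ g, μ g = μ (hp g) := by
    intro g
    conv_lhs => rw [hvv g]
    rw [hμ_mul, hμ_e, mul_one]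
  have hconj_e : ∀ (h : G) (k : ZMod 5), h⁻¹ * e k * h = e (μ h * k) := by
    intro h k
    rw [he_mul, ← hμ h]
    simp only [he]
    rw [hcp]
  have hv_mul : ∀ g g', vv (g * g') = vv g * μ g' + vv g' := by
    intro g g'
    have h2 : e (vv g) * hp g' = hp g' * e (vv g * μ g') := by
      have h3 := hconj_e (hp g') (vv g)
      rw [← hμ_hp g', mul_comm (μ g') (vv g)] at h3
      rw [← h3]
      group
    have h1 : g * g' = (hp g * hp g') * e (vv g * μ g' + vv g') := by
      rw [he_add]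
      calc g * g' = hp g * e (vv g) * (hp g' * e (vv g')) := by rw [← hvv g, ← hvv g']
        _ = hp g * (e (vv g) * hp g') * e (vv g') := by group
        _ = hp g * (hp g' * e (vv g * μ g')) * e (vv g') := by rw [h2]
        _ = hp g * hp g' * (e (vv g * μ g') * e (vv g')) := by group
    exact (huniq _ (hpH (g * g')) _ (Subgroup.mul_mem _ (hpH g) (hpH g')) _ _
      ((hvv (g * g')).symm.trans h1)).2
  refine ⟨μ, vv, hμ_ne, hμ_mul, hv_mul, ?_⟩
  intro g g' hμg hvg
  have hcH : hp g' * (hp g)⁻¹ ∈ (H : Subgroup G) :=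
    Subgroup.mul_mem _ (hpH g') (Subgroup.inv_mem _ (hpH g))
  have hμc : μ (hp g' * (hp g)⁻¹) = 1 := by
    have h1 : μ (hp g' * (hp g)⁻¹ * hp g) = μ (hp g') := by
      congr 1
      group
    rw [hμ_mul, ← hμ_hp g', ← hμ_hp g, ← hμg] at h1
    exact mul_right_cancel₀ (hμ_ne g) (by rw [h1, one_mul])
  have hcz : (hp g' * (hp g)⁻¹)⁻¹ * z * (hp g' * (hp g)⁻¹) = z := by
    rw [hμ (hp g' * (hp g)⁻¹), hμc, he_one]
  have hc1 : hp g' * (hp g)⁻¹ = 1 := by
    apply hz
    intro x
    have hcomm_z : Commute (hp g' * (hp g)⁻¹) z := by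
      show hp g' * (hp g)⁻¹ * z = z * (hp g' * (hp g)⁻¹)
      calc hp g' * (hp g)⁻¹ * z
          = hp g' * (hp g)⁻¹ * ((hp g' * (hp g)⁻¹)⁻¹ * z * (hp g' * (hp g)⁻¹)) := by rw [hcz]
        _ = z * (hp g' * (hp g)⁻¹) := by group
    have hcomm_e : ∀ k, e k * (hp g' * (hp g)⁻¹) = hp g' * (hp g)⁻¹ * e k := by
      intro k
      exact ((hcomm_z.pow_right k.val).eq).symm
    calc x * (hp g' * (hp g)⁻¹) = hp x * e (vv x) * (hp g' * (hp g)⁻¹) := by rw [← hvv x]
      _ = hp x * (e (vv x) * (hp g' * (hp g)⁻¹)) := by group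
      _ = hp x * (hp g' * (hp g)⁻¹ * e (vv x)) := by rw [hcomm_e]
      _ = (hp x * (hp g' * (hp g)⁻¹)) * e (vv x) := by group
      _ = (hp g' * (hp g)⁻¹ * hp x) * e (vv x) := by rw [hHcomm _ (hpH x) _ hcH]
      _ = hp g' * (hp g)⁻¹ * (hp x * e (vv x)) := by group
      _ = hp g' * (hp g)⁻¹ * x := by rw [← hvv x]
  have hh : hp g' = hp g := mul_inv_eq_one.1 hc1
  calc g = hp g * e (vv g) := hvv g
    _ = hp g' * e (vv g') := by rw [hh, hvg]
    _ = g' := (hvv g').symm

end Vale.Agent.Lib.P329.helper28
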