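import Vale.Agent.Lib.P329.helper28.AffTwo
import Vale.Agent.Lib.P329.helper24.CoveredMain
import Vale.Agent.Lib.P329.helper24.Small

/-!
# P329 (helper28): stamps into the affine group of `ZMod 5`

The matrices `!![m, 0; t, 1]` with `m ≠ 0` over `ZMod 5` form the group of the affine maps
`x ↦ m * x + t` of `ZMod 5` (the Frobenius group of order twenty).

* `f20_no_reflection` (in `AffOne`): no letter has `m = 4`.
* `f20_dihedral`: all letters have `m` in `{1, 4}` (a dihedral group of order ten).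
* `f20_two_values`: the letters take at most two values besides the identity matrix.
* `f20_two_letters`: every stamp of a two-letter alphabet.
-/

namespace Vale.Agent.Lib.P329.helper28

open Vale.Agent.Lib.P329 Vale.Agent.Lib.P329.helper24

variable {α : Type}

/-- The matrix of an element of the dihedral group of order ten. -/
def dmat : DihedralGroup 5 → Matrix (Fin 2) (Fin 2) (ZMod 5)
  | DihedralGroup.r i => !![1, 0; i, 1]
  | DihedralGroup.sr i => !![4, 0; i, 1]

theorem dmat_mul : ∀ x y : DihedralGroup 5, dmat (x * y) = dmat x * dmat y := by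
  decide +kernel

theorem dmat_one : dmat 1 = 1 := by
  rw [DihedralGroup.one_def]
  simp only [dmat]
  exact Matrix.one_fin_two.symm

/-- All letters are translations or reflections. -/
theorem f20_dihedral [Fintype α] (μ v : α → ZMod 5) (h : ∀ a, μ a = 1 ∨ μ a = 4)
    (T : Set (Matrix (Fin 2) (Fin 2) (ZMod 5))) :
    HLE 1 ({w : List α | (w.map (fun a => !![μ a, 0; v a, 1])).prod ∈ T} : Language α) := by
  classical
  have h14 : (4 : ZMod 5) ≠ 1 := by decide
  have hφ : ∀ a, dmat (if μ a = 1 then DihedralGroup.r (v a) else DihedralGroup.sr (v a))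
      = !![μ a, 0; v a, 1] := by
    intro a
    rcases h a with h1 | h1
    · rw [if_pos h1, h1]
      rfl
    · rw [if_neg (by rw [h1]; exact h14), h1]
      rfl
  have hprod : ∀ w : List α, dmat ((w.map (fun a => if μ a = 1 then DihedralGroup.r (v a)
      else DihedralGroup.sr (v a))).prod) = (w.map (fun a => !![μ a, 0; v a, 1])).prod := by
    intro w
    induction w with
    | nil => simpa using dmat_one
    | cons a w ih =>
      rw [List.map_cons, List.prod_cons, dmat_mul, ih, hφ, List.map_cons, List.prod_cons]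
  have hcard : Nat.card (DihedralGroup 5) = 10 := by
    rw [DihedralGroup.nat_card]
  have hcov : Covered (DihedralGroup 5) :=
    small_group_covered (by rw [hcard]; norm_num) (by rw [hcard]; norm_num)
  refine (covered_height_one hcov (fun a => if μ a = 1 then DihedralGroup.r (v a)
      else DihedralGroup.sr (v a)) (dmat ⁻¹' T)).congr ?_
  intro w
  show _ ∈ T ↔ dmat _ ∈ T
  rw [hprod]

/-- The identity, one matrix with `m` equal to `2` or `3`, one matrix with `m = 4`. -/
theorem f20_two_norm [Fintype α] (μ v : α → ZMod 5) (m v0 v1 : ZMod 5) (hm : m = 2 ∨ m = 3)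
    (h : ∀ a, (μ a = 1 ∧ v a = 0) ∨ (μ a = m ∧ v a = v0) ∨ (μ a = 4 ∧ v a = v1))
    (T : Set (Matrix (Fin 2) (Fin 2) (ZMod 5))) :
    HLE 1 ({w : List α | (w.map (fun a => !![μ a, 0; v a, 1])).prod ∈ T} : Language α) := by
  classical
  have h21 : (2 : ZMod 5) ≠ 1 := by decide
  have h31 : (3 : ZMod 5) ≠ 1 := by decide
  have h41 : (4 : ZMod 5) ≠ 1 := by decide
  have h24 : (2 : ZMod 5) ≠ 4 := by decide
  have h34 : (3 : ZMod 5) ≠ 4 := by decide
  have e1 : μ = mu2 m (fun a => if μ a = 1 then 0 else if μ a = 4 then 2 else 1) := by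
    funext a
    rcases h a with ⟨h1, h2⟩ | ⟨h1, h2⟩ | ⟨h1, h2⟩
    · simp [mu2, h1]
    · rcases hm with rfl | rfl <;> simp [mu2, h1, h21, h31, h24, h34]
    · simp [mu2, h1, h41]
  have e2 : v = tr2 (fun a => if μ a = 1 then 0 else if μ a = 4 then 2 else 1) v0 v1 := by
    funext a
    rcases h a with ⟨h1, h2⟩ | ⟨h1, h2⟩ | ⟨h1, h2⟩
    · simp [tr2, h1, h2]
    · rcases hm with rfl | rfl <;> simp [tr2, h1, h2, h21, h31, h24, h34]
    · simp [tr2, h1, h2, h41]
  have key := f20_two (fun a => if μ a = 1 then 0 else if μ a = 4 then 2 else 1) m hm v0 v1 T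
  rw [← e1, ← e2] at key
  exact key

/-- The letters take at most two values besides the identity matrix. -/
theorem f20_two_values [Fintype α] (μ v : α → ZMod 5) (hμ : ∀ a, μ a ≠ 0)
    (m1 t1 m2 t2 : ZMod 5)
    (h : ∀ a, (μ a = 1 ∧ v a = 0) ∨ (μ a = m1 ∧ v a = t1) ∨ (μ a = m2 ∧ v a = t2))
    (T : Set (Matrix (Fin 2) (Fin 2) (ZMod 5))) :
    HLE 1 ({w : List α | (w.map (fun a => !![μ a, 0; v a, 1])).prod ∈ T} : Language α) := by
  have hcase : ∀ x : ZMod 5, x ≠ 0 → x = 1 ∨ x = 2 ∨ x = 3 ∨ x = 4 := by decide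
  have h41 : (4 : ZMod 5) ≠ 1 := by decide
  have h42 : (4 : ZMod 5) ≠ 2 := by decide
  have h43 : (4 : ZMod 5) ≠ 3 := by decide
  by_cases hA : ∀ a, μ a ≠ 4
  · refine f20_no_reflection μ v (fun a => ?_) T
    rcases hcase (μ a) (hμ a) with h1 | h1 | h1 | h1
    · exact Or.inl h1
    · exact Or.inr (Or.inl h1)
    · exact Or.inr (Or.inr h1)
    · exact absurd h1 (hA a)
  by_cases hB : ∀ a, μ a = 1 ∨ μ a = 4
  · exact f20_dihedral μ v hB T
  push Not at hA hB
  obtain ⟨a1, ha1⟩ := hA
  obtain ⟨a2, ha2, ha2'⟩ := hB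
  have hm2 : μ a2 = 2 ∨ μ a2 = 3 := by
    rcases hcase (μ a2) (hμ a2) with h1 | h1 | h1 | h1
    · exact absurd h1 ha2
    · exact Or.inl h1
    · exact Or.inr h1
    · exact absurd h1 ha2'
  rcases h a1 with ⟨h1, _⟩ | ⟨h1, _⟩ | ⟨h1, _⟩
  · rw [ha1] at h1
    exact absurd h1 h41
  · -- the first value is the reflection
    have hm1 : m1 = 4 := by rw [← h1, ha1]
    rcases h a2 with ⟨h2, _⟩ | ⟨h2, _⟩ | ⟨h2, _⟩
    · exact absurd h2 ha2
    · rw [hm1] at h2
      exact absurd h2 ha2'
    · refine f20_two_norm μ v m2 t2 t1 (by rw [← h2]; exact hm2) (fun a => ?_) T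
      rcases h a with h3 | h3 | h3
      · exact Or.inl h3
      · exact Or.inr (Or.inr (by rw [← hm1]; exact h3))
      · exact Or.inr (Or.inl h3)
  · -- the second value is the reflection
    have hm1 : m2 = 4 := by rw [← h1, ha1]
    rcases h a2 with ⟨h2, _⟩ | ⟨h2, _⟩ | ⟨h2, _⟩
    · exact absurd h2 ha2
    · refine f20_two_norm μ v m1 t1 t2 (by rw [← h2]; exact hm2) (fun a => ?_) T
      rcases h a with h3 | h3 | h3
      · exact Or.inl h3
      · exact Or.inr (Or.inl h3)
      · exact Or.inr (Or.inr (by rw [← hm1]; exact h3))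
    · rw [hm1] at h2
      exact absurd h2 ha2'

/-- Every stamp of a two-letter alphabet. -/
theorem f20_two_letters (μ v : Fin 2 → ZMod 5) (hμ : ∀ a, μ a ≠ 0)
    (T : Set (Matrix (Fin 2) (Fin 2) (ZMod 5))) :
    HLE 1 ({w : List (Fin 2) | (w.map (fun a => !![μ a, 0; v a, 1])).prod ∈ T} :
      Language (Fin 2)) := by
  refine f20_two_values μ v hμ (μ 0) (v 0) (μ 1) (v 1) (fun a => ?_) T
  fin_cases a
  · exact Or.inr (Or.inl ⟨rfl, rfl⟩)
  · exact Or.inr (Or.inr ⟨rfl, rfl⟩)

end Vale.Agent.Lib.P329.helper28
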