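import Vale.Agent.Lib.P329.helper28.CertFour
import Vale.Agent.Lib.P329.helper24.Zone
import Vale.Agent.Lib.P329.helper24.CoveredMain
import Vale.Agent.Lib.P329.helper24.Small

/-!
# P329 (helper28): stamps into the symmetric group on four points

The four points are identified with the plane over the field with two elements through the
binary digits, so that `^^^` on `Fin 4` is the addition of that plane and every permutation of
`Fin 4` is an affine map.  The automaton `dstep ρ p` lets the letter `a` act as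
`i ↦ ρ a i ^^^ p a`.  Its final state is additive in triples (table `p`, initial state).  For every
permutation that is not a fixed-point-free involution there are three translations with sum zero
that bring it into the three lists `setP`, `setQ`, `setR`; hence the final state of the automaton
with `p = 0` is a good function, and it determines the product of the permutations of the
letters.

* `s4_no_dt`: no letter is sent to a fixed-point-free involution.
* `s4_two_values`: the letters take at most two values besides the identity.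
-/

namespace Vale.Agent.Lib.P329.helper28

open Vale.Agent.Lib.P329 Vale.Agent.Lib.P329.helper24 Equiv

variable {α : Type}

/-- A fixed-point-free involution of `Fin 4`, that is a product of two disjoint
transpositions. -/
def DT (σ : Perm (Fin 4)) : Prop := ∀ i, σ i ≠ i ∧ σ (σ i) = i

instance (σ : Perm (Fin 4)) : Decidable (DT σ) := by
  unfold DT
  infer_instance

theorem affine3 : ∀ (ρ : Perm (Fin 4)) (i j k : Fin 4),
    ρ (i ^^^ j ^^^ k) = ρ i ^^^ ρ j ^^^ ρ k := by
  decide +kernel

theorem xor6 : ∀ x y z p q r : Fin 4,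
    (x ^^^ y ^^^ z) ^^^ (p ^^^ q ^^^ r) = (x ^^^ p) ^^^ (y ^^^ q) ^^^ (z ^^^ r) := by
  decide +kernel

theorem xor_zero4 : ∀ x : Fin 4, x ^^^ 0 = x := by decide

theorem dt_even : ∀ g : Perm (Fin 4), DT g → Perm.sign g = 1 := by decide +kernel

theorem dt_comm : ∀ g d : Perm (Fin 4), DT g → DT d → g * d = d * g := by decide +kernel

theorem dt_noncentral : ∀ d : Perm (Fin 4), DT d → ∃ x : Perm (Fin 4), x * d ≠ d * x := by
  decide +kernel

theorem odd_comm : ∀ h : Perm (Fin 4),
    Perm.sign h = 1 ∨ ∃ d : Perm (Fin 4), DT d ∧ h * d = d * h := by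
  decide +kernel

theorem dt_inv : ∀ σ : Perm (Fin 4), ¬ DT σ → ¬ DT σ⁻¹ := by decide +kernel

/-- Three translations with sum zero bring a permutation that is not a fixed-point-free
involution into the three lists. -/
theorem choice4 : ∀ ρ : Perm (Fin 4), ¬ DT ρ → ∃ p₁ p₂ p₃ : Fin 4,
    code (fun i => ρ i ^^^ p₁) ∈ setP ∧ code (fun i => ρ i ^^^ p₂) ∈ setQ ∧
      code (fun i => ρ i ^^^ p₃) ∈ setR ∧ p₁ ^^^ p₂ ^^^ p₃ = 0 := by
  decide +kernel

/-- The automaton in which the letter `a` acts as `i ↦ ρ a i ^^^ p a`. -/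
def dstep (ρ : α → Perm (Fin 4)) (p : α → Fin 4) (i : Fin 4) (a : α) : Fin 4 := ρ a i ^^^ p a

theorem run_dstep_xor (ρ : α → Perm (Fin 4)) (p p' p'' : α → Fin 4) (w : List α) :
    ∀ i i' i'' : Fin 4,
      run (dstep ρ (fun a => p a ^^^ p' a ^^^ p'' a)) (i ^^^ i' ^^^ i'') w
        = run (dstep ρ p) i w ^^^ run (dstep ρ p') i' w ^^^ run (dstep ρ p'') i'' w := by
  induction w with
  | nil => intro i i' i''; rfl
  | cons a w ih =>
    intro i i' i''
    rw [run_cons, run_cons, run_cons, run_cons, ← ih]
    congr 1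
    simp only [dstep]
    rw [affine3, xor6]

theorem good_dstep [Fintype α] (S : List (List ℕ)) (hcf : CounterFree (kill (aut4 S) (ev4 S)))
    (ρ : α → Perm (Fin 4)) (p : α → Fin 4) (h : ∀ a, code (fun i => ρ a i ^^^ p a) ∈ S)
    (i0 : Fin 4) : Good (fun w : List α => run (dstep ρ p) i0 w) := by
  have hδ : (fun (i : Fin 4) (a : α) => aut4 S i (fun j => ρ a j ^^^ p a)) = dstep ρ p := by
    funext i a
    simp [aut4, dstep, h a]
  have hkill : kill (fun (i : Fin 4) (a : α) => aut4 S i (fun j => ρ a j ^^^ p a))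
      (fun (i : Fin 4) (a : α) => ev4 S i (fun j => ρ a j ^^^ p a))
      = fun o a => kill (aut4 S) (ev4 S) o (fun j => ρ a j ^^^ p a) := by
    funext o a
    cases o <;> rfl
  have hcf' : CounterFree (kill (fun (i : Fin 4) (a : α) => aut4 S i (fun j => ρ a j ^^^ p a))
      (fun (i : Fin 4) (a : α) => ev4 S i (fun j => ρ a j ^^^ p a))) := by
    rw [hkill]
    exact CounterFree.comap _ _ hcf
  have hland : ∀ (s : Fin 4) (c : α), ev4 S s (fun j => ρ c j ^^^ p c) = true →
      aut4 S s (fun j => ρ c j ^^^ p c) = 0 := by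
    intro s c hc
    simp only [ev4, decide_eq_true_eq] at hc
    simp only [aut4, if_pos hc.1]
    exact hc.2
  have hg := (Good.of_counterfree _ _ 0 hland hcf' 1 i0).comp Prod.fst
  rw [hδ] at hg
  exact hg

/-- The final state of the automaton of the permutations themselves. -/
theorem good_perm_run [Fintype α] (ρ : α → Perm (Fin 4)) (hρ : ∀ a, ¬ DT (ρ a)) (i0 : Fin 4) :
    Good (fun w : List α => run (dstep ρ (fun _ => 0)) i0 w) := by
  choose p₁ p₂ p₃ h1 h2 h3 h0 using fun a => choice4 (ρ a) (hρ a)
  have e : (fun w : List α => run (dstep ρ (fun _ => 0)) i0 w)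
      = fun w => run (dstep ρ p₁) i0 w ^^^ run (dstep ρ p₂) 0 w ^^^ run (dstep ρ p₃) 0 w := by
    funext w
    have h4 := run_dstep_xor ρ p₁ p₂ p₃ w i0 0 0
    have h5 : (fun a => p₁ a ^^^ p₂ a ^^^ p₃ a) = fun _ => (0 : Fin 4) := funext h0
    rw [h5, xor_zero4, xor_zero4] at h4
    exact h4
  rw [e]
  exact ((good_dstep setP cfP ρ p₁ h1 i0).map₂ (good_dstep setQ cfQ ρ p₂ h2 0)
    (fun x y => x ^^^ y)).map₂ (good_dstep setR cfR ρ p₃ h3 0) (fun x y => x ^^^ y)

theorem run_perm (φ : α → Perm (Fin 4)) (w : List α) (i : Fin 4) :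
    run (dstep (fun a => (φ a)⁻¹) (fun _ => 0)) i w = ((w.map φ).prod)⁻¹ i := by
  induction w using List.reverseRecOn with
  | nil => simp
  | append_singleton w a ih =>
    rw [run_snoc, ih, List.map_append, List.prod_append]
    simp [dstep, mul_inv_rev]

/-- No letter is sent to a fixed-point-free involution. -/
theorem s4_no_dt [Fintype α] (φ : α → Perm (Fin 4)) (hφ : ∀ a, ¬ DT (φ a))
    (T : Set (Perm (Fin 4))) :
    HLE 1 ({w : List α | (w.map φ).prod ∈ T} : Language α) := by
  have h1 : Good (fun w : List α => fun i : Fin 4 =>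
      run (dstep (fun a => (φ a)⁻¹) (fun _ => 0)) i w) :=
    Good.pi _ (fun i => good_perm_run _ (fun a => dt_inv _ (hφ a)) i)
  have h2 : Good (fun w : List α => (w.map φ).prod) := by
    refine h1.of_det _ ?_
    intro w w' h
    have h3 : ((w.map φ).prod)⁻¹ = ((w'.map φ).prod)⁻¹ := by
      ext i
      have h4 := congrFun h i
      rw [run_perm, run_perm] at h4
      rw [h4]
    exact inv_injective h3
  have h3 := (h2.comp (fun g => (g ∈ T : Prop))).level True
  refine h3.congr ?_
  intro w
  show (w.map φ).prod ∈ T ↔ ((w.map φ).prod ∈ T) = True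
  rw [eq_iff_iff, iff_true]

/-- Stamps into a covered subgroup. -/
theorem covered_subgroup {G : Type} [Group G] (K : Subgroup G) [Finite K] (hK : Covered K)
    [Fintype α] (φ : α → G) (hφ : ∀ a, φ a ∈ K) (T : Set G) :
    HLE 1 ({w : List α | (w.map φ).prod ∈ T} : Language α) := by
  have hprod : ∀ w : List α,
      (((w.map (fun a => (⟨φ a, hφ a⟩ : K))).prod : K) : G) = (w.map φ).prod := by
    intro w
    induction w with
    | nil => rfl
    | cons a w ih =>
      rw [List.map_cons, List.prod_cons, Subgroup.coe_mul, ih, List.map_cons, List.prod_cons]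
  refine (covered_height_one hK (fun a => (⟨φ a, hφ a⟩ : K)) {k : K | (k : G) ∈ T}).congr ?_
  intro w
  show (w.map φ).prod ∈ T ↔ (((w.map (fun a => (⟨φ a, hφ a⟩ : K))).prod : K) : G) ∈ T
  rw [hprod]

/-- Stamps into a proper subgroup of the symmetric group on four points. -/
theorem s4_proper [Fintype α] (K : Subgroup (Perm (Fin 4))) (hK : K ≠ ⊤)
    (φ : α → Perm (Fin 4)) (hφ : ∀ a, φ a ∈ K) (T : Set (Perm (Fin 4))) :
    HLE 1 ({w : List α | (w.map φ).prod ∈ T} : Language α) := by
  have hcard : Nat.card (Perm (Fin 4)) = 24 := by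
    rw [Nat.card_eq_fintype_card, Fintype.card_perm, Fintype.card_fin]
    rfl
  have hdvd : Nat.card K ∣ 24 := by
    rw [← hcard]
    exact Subgroup.card_subgroup_dvd_card K
  have hne : Nat.card K ≠ 24 := by
    intro h
    apply hK
    exact (Subgroup.card_eq_iff_eq_top K).1 (by rw [h, hcard])
  have hlt : Nat.card K < 24 := lt_of_le_of_ne (Nat.le_of_dvd (by norm_num) hdvd) hne
  have h20 : Nat.card K ≠ 20 := by
    intro h
    rw [h] at hdvd
    norm_num at hdvd
  exact covered_subgroup K (small_group_covered hlt (fun h => absurd h h20)) φ hφ T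

theorem dt_pair_proper (x y : Perm (Fin 4)) (hx : DT x) :
    ∃ K : Subgroup (Perm (Fin 4)), K ≠ ⊤ ∧ x ∈ K ∧ y ∈ K := by
  rcases odd_comm y with hy | ⟨d, hd, hyd⟩
  · refine ⟨alternatingGroup (Fin 4), ?_, ?_, ?_⟩
    · intro h
      have h1 : Equiv.swap (0 : Fin 4) 1 ∈ alternatingGroup (Fin 4) := by
        rw [h]
        trivial
      rw [Equiv.Perm.mem_alternatingGroup, Equiv.Perm.sign_swap (by decide)] at h1
      exact absurd h1 (by decide)
    · exact Equiv.Perm.mem_alternatingGroup.2 (dt_even x hx)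
    · exact Equiv.Perm.mem_alternatingGroup.2 hy
  · refine ⟨Subgroup.centralizer {d}, ?_, ?_, ?_⟩
    · intro h
      obtain ⟨z, hz⟩ := dt_noncentral d hd
      have h1 : z ∈ Subgroup.centralizer ({d} : Set (Perm (Fin 4))) := by
        rw [h]
        trivial
      rw [Subgroup.mem_centralizer_iff] at h1
      exact hz (h1 d rfl).symm
    · rw [Subgroup.mem_centralizer_iff]
      intro k hk
      rw [Set.mem_singleton_iff] at hk
      rw [hk]
      exact (dt_comm x d hx hd).symm
    · rw [Subgroup.mem_centralizer_iff]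
      intro k hk
      rw [Set.mem_singleton_iff] at hk
      rw [hk]
      exact hyd.symm

/-- The letters take at most two values besides the identity. -/
theorem s4_two_values [Fintype α] (φ : α → Perm (Fin 4)) (g h : Perm (Fin 4))
    (hφ : ∀ a, φ a = 1 ∨ φ a = g ∨ φ a = h) (T : Set (Perm (Fin 4))) :
    HLE 1 ({w : List α | (w.map φ).prod ∈ T} : Language α) := by
  by_cases hdt : ∀ a, ¬ DT (φ a)
  · exact s4_no_dt φ hdt T
  push Not at hdt
  obtain ⟨a0, ha0⟩ := hdt
  have h1 : ¬ DT (1 : Perm (Fin 4)) := by decide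
  rcases hφ a0 with h2 | h2 | h2
  · rw [h2] at ha0
    exact absurd ha0 h1
  · rw [h2] at ha0
    obtain ⟨K, hK, hg, hh⟩ := dt_pair_proper g h ha0
    refine s4_proper K hK φ (fun a => ?_) T
    rcases hφ a with h3 | h3 | h3 <;> rw [h3]
    · exact K.one_mem
    · exact hg
    · exact hh
  · rw [h2] at ha0
    obtain ⟨K, hK, hh, hg⟩ := dt_pair_proper h g ha0
    refine s4_proper K hK φ (fun a => ?_) T
    rcases hφ a with h3 | h3 | h3 <;> rw [h3]
    · exact K.one_mem
    · exact hg
    · exact hh

/-- Every stamp of a two-letter alphabet. -/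
theorem s4_two_letters (φ : Fin 2 → Perm (Fin 4)) (T : Set (Perm (Fin 4))) :
    HLE 1 ({w : List (Fin 2) | (w.map φ).prod ∈ T} : Language (Fin 2)) := by
  refine s4_two_values φ (φ 0) (φ 1) (fun a => ?_) T
  fin_cases a
  · exact Or.inr (Or.inl rfl)
  · exact Or.inr (Or.inr rfl)

end Vale.Agent.Lib.P329.helper28
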