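import Vale.Agent.Lib.P329.helper28.CertMark
import Vale.Agent.Lib.P329.helper28.SymFour

/-!
# P329 (helper28): stamps into the symmetric group on four points, with translations

The four points are the plane over the field with two elements, `^^^` is its addition, and the
fixed-point-free involutions are the translations `tr v`, `v ≠ 0`.  Every permutation `ρ` is the
composition of its linear part `lin ρ`, which fixes `0` and permutes `1, 2, 3`, and of the
translation by `ρ 0`.

The final state of the automaton of a stamp is additive in the table of the translations, so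
that the letters sent to the translation by `v` can be treated separately: their contribution
is the sum, over the initial states `z = 1, 2, 3` of the automaton of the linear parts, of the
final state, taken when the number of these letters read at the state `v` is odd.  This number
modulo two is given by the hub-event lemma at the state `v` when no linear part is the
transposition that fixes `v`, and by the two other states and the total number of these letters
when no linear part is one of the two other transpositions.
-/

namespace Vale.Agent.Lib.P329.helper28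

open Vale.Agent.Lib.P329 Vale.Agent.Lib.P329.helper24 Equiv

variable {α : Type}

theorem xor_cancel4 : ∀ i v : Fin 4, (i ^^^ v) ^^^ v = i := by decide

/-- The translation by `v`. -/
def tr (v : Fin 4) : Perm (Fin 4) where
  toFun i := i ^^^ v
  invFun i := i ^^^ v
  left_inv i := xor_cancel4 i v
  right_inv i := xor_cancel4 i v

/-- The linear part of a permutation. -/
def lin (ρ : Perm (Fin 4)) : Perm (Fin 4) := tr (ρ 0) * ρ

theorem lin_zero : ∀ ρ : Perm (Fin 4), lin ρ 0 = 0 := by decide +kernel

theorem lin_not_dt : ∀ ρ : Perm (Fin 4), ¬ DT (lin ρ) := by decide +kernel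

theorem lin_tr : ∀ v : Fin 4, lin (tr v) = 1 := by decide +kernel

theorem tr_inv : ∀ v : Fin 4, (tr v)⁻¹ = tr v := by decide +kernel

theorem tr_dt : ∀ v : Fin 4, v ≠ 0 → DT (tr v) := by decide +kernel

theorem dstep_lin : ∀ (ρ : Perm (Fin 4)) (i : Fin 4), ρ i ^^^ 0 = lin ρ i ^^^ ρ 0 := by
  decide +kernel

theorem split_nd : ∀ ρ : Perm (Fin 4),
    (if DT ρ then 0 else ρ 0) ^^^ (if DT ρ then ρ 0 else 0) ^^^ 0 = ρ 0 := by
  decide +kernel

theorem split_dt : ∀ ρ : Perm (Fin 4),
    (if DT ρ then ρ 0 else 0)
      = (if ρ = tr 1 then 1 else 0) ^^^ (if ρ = tr 2 then 2 else 0)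
          ^^^ (if ρ = tr 3 then 3 else 0) := by
  decide +kernel

theorem dstep_nd : ∀ (ρ : Perm (Fin 4)) (i : Fin 4),
    lin ρ i ^^^ (if DT ρ then 0 else ρ 0) = (if DT ρ then 1 else ρ) i ^^^ 0 := by
  decide +kernel

theorem nd_not_dt : ∀ ρ : Perm (Fin 4), ¬ DT (if DT ρ then 1 else ρ) := by decide +kernel

/-- An odd permutation whose linear part is not in `linS v` commutes with the translation by
`v`. -/
theorem lin_bad : ∀ (v : Fin 4) (x : Perm (Fin 4)), v ≠ 0 → code ⇑(lin x⁻¹) ∉ linS v →
    Perm.sign x = -1 ∧ tr v * x = x * tr v := by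
  decide +kernel

theorem two_comm : ∀ (u v : Fin 4) (x : Perm (Fin 4)),
    ¬ (u ≠ 0 ∧ v ≠ 0 ∧ u ≠ v ∧ Perm.sign x = -1 ∧ tr u * x = x * tr u ∧ tr v * x = x * tr v) := by
  decide +kernel

/-- The sum of the images of `1, 2, 3` selected by three residues. -/
def selSum (P : Perm (Fin 4)) (c₁ c₂ c₃ : ZMod 2) : Fin 4 :=
  (if c₁ = 1 then P 1 else 0) ^^^ (if c₂ = 1 then P 2 else 0) ^^^ (if c₃ = 1 then P 3 else 0)

theorem selSum_lin : ∀ (P Q : Perm (Fin 4)), Q 0 = 0 → ∀ c₁ c₂ c₃ : ZMod 2,
    Q (selSum P c₁ c₂ c₃) ^^^ 0 = selSum (Q * P) c₁ c₂ c₃ := by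
  decide +kernel

theorem selSum_mark : ∀ (P : Perm (Fin 4)), P 0 = 0 → ∀ v : Fin 4, v ≠ 0 →
    ∀ c₁ c₂ c₃ : ZMod 2,
      selSum P c₁ c₂ c₃ ^^^ v
        = selSum P (c₁ + if P 1 = v then 1 else 0) (c₂ + if P 2 = v then 1 else 0)
            (c₃ + if P 3 = v then 1 else 0) := by
  decide +kernel

theorem three_states : ∀ (b : Bool) (z : Fin 4), z ≠ 0 →
    (if (b && decide (z = 1)) = true then 1 else 0)
      + (if (b && decide (z = 2)) = true then 1 else 0)
      + (if (b && decide (z = 3)) = true then 1 else 0) = (if b = true then 1 else 0 : ℕ) := by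
  decide

/-- The events of the letters of `m` read at the state `u`. -/
def evMk (m : α → Bool) (u : Fin 4) (s : Fin 4) (a : α) : Bool := m a && decide (s = u)

theorem ecount_single {Q : Type} (δ : Q → α → Q) (ev : Q → α → Bool) (p : Q) (a : α) :
    ecount δ ev p [a] = if ev p a = true then 1 else 0 := by
  simp [ecount]

/-- The final state of the automaton in which the letters of `m` add `v`, in terms of the
automaton of the linear parts. -/
theorem run_marked (L : α → Perm (Fin 4)) (hL : ∀ a, L a 0 = 0) (m : α → Bool)
    (hm : ∀ a, m a = true → L a = 1) (v : Fin 4) (hv : v ≠ 0) (w : List α) :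
    ∃ P : Perm (Fin 4), P 0 = 0 ∧ (∀ z, run (dstep L (fun _ => 0)) z w = P z) ∧
      run (dstep L (fun a => if m a = true then v else 0)) 0 w
        = selSum P ((ecount (dstep L (fun _ => 0)) (evMk m v) 1 w : ℕ) : ZMod 2)
            ((ecount (dstep L (fun _ => 0)) (evMk m v) 2 w : ℕ) : ZMod 2)
            ((ecount (dstep L (fun _ => 0)) (evMk m v) 3 w : ℕ) : ZMod 2) := by
  induction w using List.reverseRecOn with
  | nil =>
    refine ⟨1, rfl, fun z => rfl, ?_⟩
    simp only [ecount, run_nil, Nat.cast_zero]
    decide
  | append_singleton w a ih =>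
    obtain ⟨P, hP0, hPz, hrun⟩ := ih
    by_cases hma : m a = true
    · refine ⟨P, hP0, ?_, ?_⟩
      · intro z
        rw [run_snoc, hPz]
        simp only [dstep, hm a hma, Perm.coe_one, id_eq]
        exact xor_zero4 _
      · have e : ∀ z : Fin 4,
            ((ecount (dstep L (fun _ => 0)) (evMk m v) z (w ++ [a]) : ℕ) : ZMod 2)
              = ((ecount (dstep L (fun _ => 0)) (evMk m v) z w : ℕ) : ZMod 2)
                + (if P z = v then 1 else 0) := by
          intro z
          rw [ecount_append, hPz, ecount_single]
          simp only [evMk, hma, Bool.true_and, decide_eq_true_eq]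
          push_cast
          rfl
        rw [run_snoc, hrun, e 1, e 2, e 3]
        simp only [dstep, hm a hma, hma, if_true, Perm.coe_one, id_eq]
        exact selSum_mark P hP0 v hv _ _ _
    · refine ⟨L a * P, ?_, ?_, ?_⟩
      · rw [Perm.mul_apply, hP0, hL a]
      · intro z
        rw [run_snoc, hPz]
        simp only [dstep, Perm.mul_apply]
        exact xor_zero4 _
      · have e : ∀ z : Fin 4,
            ecount (dstep L (fun _ => 0)) (evMk m v) z (w ++ [a])
              = ecount (dstep L (fun _ => 0)) (evMk m v) z w := by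
          intro z
          rw [ecount_append, ecount_single]
          simp [evMk, hma]
        rw [run_snoc, hrun, e 1, e 2, e 3]
        simp only [dstep, hma]
        exact selSum_lin P (L a) (hL a) _ _ _

theorem ev_split (S : List (List ℕ)) (u z : Fin 4) (c : (Fin 4 → Fin 4) × Bool) :
    (if evA u S z c = true then 1 else 0 : ℕ)
      = (if (c.2 && decide (z = u)) = true then 1 else 0)
        + (if evB u S z c = true then 1 else 0) := by
  obtain ⟨g, b⟩ := c
  cases b
  · simp [evA, evB, autM]
  · by_cases h2 : z = u <;> simp [evA, evB, autM, h2]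

theorem ecount_split (S : List (List ℕ)) (u : Fin 4) (f : α → (Fin 4 → Fin 4) × Bool)
    (z : Fin 4) (w : List α) :
    ecount (fun s a => autM S s (f a)) (fun s a => evA u S s (f a)) z w
      = ecount (fun s a => autM S s (f a)) (evMk (fun a => (f a).2) u) z w
        + ecount (fun s a => autM S s (f a)) (fun s a => evB u S s (f a)) z w := by
  induction w generalizing z with
  | nil => rfl
  | cons a w ih =>
    have key : (if evA u S z (f a) = true then 1 else 0 : ℕ)
        = (if evMk (fun a => (f a).2) u z a = true then 1 else 0)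
          + (if evB u S z (f a) = true then 1 else 0) := ev_split S u z (f a)
    simp only [ecount]
    rw [ih]
    omega

/-- The number of flagged letters read at the state `u`, modulo two. -/
theorem good_marked_count [Fintype α] (S : List (List ℕ)) (u : Fin 4)
    (hA : CounterFree (kill (autM S) (evA u S))) (hB : CounterFree (kill (autM S) (evB u S)))
    (f : α → (Fin 4 → Fin 4) × Bool) (z : Fin 4) :
    Good (fun w : List α =>
      ((ecount (fun s a => autM S s (f a)) (evMk (fun a => (f a).2) u) z w : ℕ) : ZMod 2)) := by
  have hkA : kill (fun (s : Fin 4) (a : α) => autM S s (f a)) (fun s a => evA u S s (f a))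
      = fun o a => kill (autM S) (evA u S) o (f a) := by
    funext o a
    cases o <;> rfl
  have hkB : kill (fun (s : Fin 4) (a : α) => autM S s (f a)) (fun s a => evB u S s (f a))
      = fun o a => kill (autM S) (evB u S) o (f a) := by
    funext o a
    cases o <;> rfl
  have hcA : CounterFree (kill (fun (s : Fin 4) (a : α) => autM S s (f a))
      (fun s a => evA u S s (f a))) := by
    rw [hkA]
    exact CounterFree.comap _ _ hA
  have hcB : CounterFree (kill (fun (s : Fin 4) (a : α) => autM S s (f a))
      (fun s a => evB u S s (f a))) := by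
    rw [hkB]
    exact CounterFree.comap _ _ hB
  have hlA : ∀ (s : Fin 4) (c : α), evA u S s (f c) = true → autM S s (f c) = u := by
    intro s c h
    simp only [evA, decide_eq_true_eq] at h
    exact h
  have hlB : ∀ (s : Fin 4) (c : α), evB u S s (f c) = true → autM S s (f c) = u := by
    intro s c h
    simp only [evB, decide_eq_true_eq] at h
    exact h.1
  have gA := (Good.of_counterfree _ _ u hlA hcA 2 z).comp Prod.snd
  have gB := (Good.of_counterfree _ _ u hlB hcB 2 z).comp Prod.snd
  have e : (fun w : List α =>
      ((ecount (fun s a => autM S s (f a)) (evMk (fun a => (f a).2) u) z w : ℕ) : ZMod 2))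
      = fun w => ((ecount (fun s a => autM S s (f a)) (fun s a => evA u S s (f a)) z w : ℕ)
          : ZMod 2)
        - ((ecount (fun s a => autM S s (f a)) (fun s a => evB u S s (f a)) z w : ℕ)
          : ZMod 2) := by
    funext w
    rw [ecount_split, Nat.cast_add, add_sub_cancel_right]
  rw [e]
  exact gA.sub gB

/-- The number of letters of `m` read at the state `u` by the automaton of the linear parts,
when no linear part is the transposition that fixes `u`. -/
theorem good_count_valid [Fintype α] (L : α → Perm (Fin 4)) (m : α → Bool)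
    (hm : ∀ a, m a = true → L a = 1) (u : Fin 4) (hu : u ≠ 0)
    (hval : ∀ a, code ⇑(L a) ∈ linS u) (z : Fin 4) :
    Good (fun w : List α =>
      ((ecount (dstep L (fun _ => 0)) (evMk m u) z w : ℕ) : ZMod 2)) := by
  have h := good_marked_count (linS u) u (cfA_lin u hu) (cfB_lin u hu)
    (fun a => (⇑(L a), m a)) z
  have hδ : (fun (s : Fin 4) (a : α) => autM (linS u) s (⇑(L a), m a))
      = dstep L (fun _ => 0) := by
    funext s a
    simp only [autM, dstep]
    by_cases hma : m a = true
    · simp only [hma, if_true, hm a hma, Perm.coe_one, id_eq]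
      exact (xor_zero4 s).symm
    · simp only [hma, hval a, if_true]
      exact (xor_zero4 _).symm
  rw [hδ] at h
  exact h

/-- The number of letters of `m`, modulo two. -/
theorem good_total [Fintype α] (m : α → Bool) :
    Good (fun w : List α => ((w.countP m : ℕ) : ZMod 2)) := by
  have h := good_marked_count [] 1 cfA0 cfB0 (fun a : α => ((id : Fin 4 → Fin 4), m a)) 1
  have e : ∀ w : List α,
      ecount (fun s a => autM [] s ((id : Fin 4 → Fin 4), m a)) (evMk m 1) 1 w = w.countP m := by
    intro w
    induction w with
    | nil => rfl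
    | cons a w ih =>
      have h1 : autM [] 1 ((id : Fin 4 → Fin 4), m a) = 1 := by simp [autM]
      have h2 : (if evMk m 1 1 a = true then 1 else 0 : ℕ) = if m a = true then 1 else 0 := by
        simp [evMk]
      simp only [ecount, List.countP_cons, h1, ih]
      omega
  have e2 : (fun w : List α => ((w.countP m : ℕ) : ZMod 2))
      = fun w => ((ecount (fun s a => autM [] s ((id : Fin 4 → Fin 4), m a)) (evMk m 1) 1 w : ℕ)
          : ZMod 2) := by
    funext w
    rw [e w]
  rw [e2]
  exact h

/-- Away from the state `0`, every letter of `m` is read at one of the states `1, 2, 3`. -/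
theorem ecount_three (L : α → Perm (Fin 4)) (hL : ∀ a, L a 0 = 0) (m : α → Bool) (z : Fin 4)
    (hz : z ≠ 0) (w : List α) :
    ecount (dstep L (fun _ => 0)) (evMk m 1) z w + ecount (dstep L (fun _ => 0)) (evMk m 2) z w
      + ecount (dstep L (fun _ => 0)) (evMk m 3) z w = w.countP m := by
  induction w generalizing z with
  | nil => rfl
  | cons a w ih =>
    have hz' : dstep L (fun _ => 0) z a ≠ 0 := by
      intro h
      simp only [dstep] at h
      rw [xor_zero4] at h
      apply hz
      apply (L a).injective
      rw [h, hL a]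
    have h1 := ih _ hz'
    have h2 : (if evMk m 1 z a = true then 1 else 0 : ℕ)
        + (if evMk m 2 z a = true then 1 else 0) + (if evMk m 3 z a = true then 1 else 0)
        = (if m a = true then 1 else 0) := three_states (m a) z hz
    simp only [ecount, List.countP_cons]
    omega

/-- The final state of the automaton in which the letters of `m` add `v` is a good function,
when no linear part is the transposition that fixes `v`, or none is one of the two other
transpositions. -/
theorem good_marked_run [Fintype α] (L : α → Perm (Fin 4)) (hL : ∀ a, L a 0 = 0)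
    (m : α → Bool) (hm : ∀ a, m a = true → L a = 1) (v : Fin 4) (hv : v ≠ 0)
    (hval : (∀ a, code ⇑(L a) ∈ linS v) ∨
      (∀ u : Fin 4, u ≠ 0 → u ≠ v → ∀ a, code ⇑(L a) ∈ linS u)) :
    Good (fun w : List α => run (dstep L (fun a => if m a = true then v else 0)) 0 w) := by
  have hLdt : ∀ a, ¬ DT (L a) := fun a h => (h 0).1 (hL a)
  have hcnt : ∀ z : Fin 4, z ≠ 0 → Good (fun w : List α =>
      ((ecount (dstep L (fun _ => 0)) (evMk m v) z w : ℕ) : ZMod 2)) := by
    intro z hz
    rcases hval with h1 | h2
    · exact good_count_valid L m hm v hv h1 z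
    · have hu : ∀ u : Fin 4, u ≠ 0 → u ≠ v → Good (fun w : List α =>
          ((ecount (dstep L (fun _ => 0)) (evMk m u) z w : ℕ) : ZMod 2)) :=
        fun u hu0 huv => good_count_valid L m hm u hu0 (h2 u hu0 huv) z
      have ht := good_total (α := α) m
      have h3 : ∀ w : List α,
          ((ecount (dstep L (fun _ => 0)) (evMk m 1) z w : ℕ) : ZMod 2)
            + ((ecount (dstep L (fun _ => 0)) (evMk m 2) z w : ℕ) : ZMod 2)
            + ((ecount (dstep L (fun _ => 0)) (evMk m 3) z w : ℕ) : ZMod 2)
            = ((w.countP m : ℕ) : ZMod 2) := by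
        intro w
        rw [← ecount_three L hL m z hz w]
        push_cast
        rfl
      fin_cases v
      · exact absurd rfl hv
      · have g := (ht.sub (hu 2 (by decide) (by decide))).sub (hu 3 (by decide) (by decide))
        have e : (fun w : List α =>
            ((ecount (dstep L (fun _ => 0)) (evMk m 1) z w : ℕ) : ZMod 2))
            = fun w => ((w.countP m : ℕ) : ZMod 2)
              - ((ecount (dstep L (fun _ => 0)) (evMk m 2) z w : ℕ) : ZMod 2)
              - ((ecount (dstep L (fun _ => 0)) (evMk m 3) z w : ℕ) : ZMod 2) := by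
          funext w
          rw [← h3 w]
          ring
        exact e ▸ g
      · have g := (ht.sub (hu 1 (by decide) (by decide))).sub (hu 3 (by decide) (by decide))
        have e : (fun w : List α =>
            ((ecount (dstep L (fun _ => 0)) (evMk m 2) z w : ℕ) : ZMod 2))
            = fun w => ((w.countP m : ℕ) : ZMod 2)
              - ((ecount (dstep L (fun _ => 0)) (evMk m 1) z w : ℕ) : ZMod 2)
              - ((ecount (dstep L (fun _ => 0)) (evMk m 3) z w : ℕ) : ZMod 2) := by
          funext w
          rw [← h3 w]
          ring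
        exact e ▸ g
      · have g := (ht.sub (hu 1 (by decide) (by decide))).sub (hu 2 (by decide) (by decide))
        have e : (fun w : List α =>
            ((ecount (dstep L (fun _ => 0)) (evMk m 3) z w : ℕ) : ZMod 2))
            = fun w => ((w.countP m : ℕ) : ZMod 2)
              - ((ecount (dstep L (fun _ => 0)) (evMk m 1) z w : ℕ) : ZMod 2)
              - ((ecount (dstep L (fun _ => 0)) (evMk m 2) z w : ℕ) : ZMod 2) := by
          funext w
          rw [← h3 w]
          ring
        exact e ▸ g
  have hG : ∀ z : Fin 4, z ≠ 0 → Good (fun w : List α =>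
      if ((ecount (dstep L (fun _ => 0)) (evMk m v) z w : ℕ) : ZMod 2) = 1
        then run (dstep L (fun _ => 0)) z w else 0) :=
    fun z hz => (hcnt z hz).map₂ (good_perm_run L hLdt z) (fun c x => if c = 1 then x else 0)
  have h3 := ((hG 1 (by decide)).map₂ (hG 2 (by decide)) (fun x y => x ^^^ y)).map₂
    (hG 3 (by decide)) (fun x y => x ^^^ y)
  have e : (fun w : List α => run (dstep L (fun a => if m a = true then v else 0)) 0 w)
      = fun w =>
        ((if ((ecount (dstep L (fun _ => 0)) (evMk m v) 1 w : ℕ) : ZMod 2) = 1
            then run (dstep L (fun _ => 0)) 1 w else 0)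
          ^^^ (if ((ecount (dstep L (fun _ => 0)) (evMk m v) 2 w : ℕ) : ZMod 2) = 1
            then run (dstep L (fun _ => 0)) 2 w else 0))
          ^^^ (if ((ecount (dstep L (fun _ => 0)) (evMk m v) 3 w : ℕ) : ZMod 2) = 1
            then run (dstep L (fun _ => 0)) 3 w else 0) := by
    funext w
    obtain ⟨P, -, hPz, hrun⟩ := run_marked L hL m hm v hv w
    rw [hrun, hPz, hPz, hPz]
    rfl
  rw [e]
  exact h3

/-- The final state of the automaton of a stamp, when for every translation among the letters
the odd letters all commute with it or none does (stated on the linear parts). -/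
theorem good_mixed_run [Fintype α] (ρ : α → Perm (Fin 4))
    (hρ : ∀ v : Fin 4, v ≠ 0 → (∃ a, ρ a = tr v) →
      (∀ a, code ⇑(lin (ρ a)) ∈ linS v) ∨
        (∀ u : Fin 4, u ≠ 0 → u ≠ v → ∀ a, code ⇑(lin (ρ a)) ∈ linS u))
    (i0 : Fin 4) : Good (fun w : List α => run (dstep ρ (fun _ => 0)) i0 w) := by
  have hL0 : ∀ a, lin (ρ a) 0 = 0 := fun a => lin_zero (ρ a)
  have hLdt : ∀ a, ¬ DT (lin (ρ a)) := fun a => lin_not_dt (ρ a)
  have hmark : ∀ v : Fin 4, v ≠ 0 → Good (fun w : List α =>
      run (dstep (fun a => lin (ρ a)) (fun a => if decide (ρ a = tr v) = true then v else 0))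
        0 w) := by
    intro v hv
    by_cases hex : ∃ a, ρ a = tr v
    · refine good_marked_run (fun a => lin (ρ a)) hL0 (fun a => decide (ρ a = tr v)) ?_ v hv
        (hρ v hv hex)
      intro a ha
      have h1 : ρ a = tr v := of_decide_eq_true ha
      show lin (ρ a) = 1
      rw [h1]
      exact lin_tr v
    · push Not at hex
      have e : (fun a : α => if decide (ρ a = tr v) = true then v else 0) = fun _ => 0 := by
        funext a
        simp [hex a]
      rw [e]
      exact good_perm_run _ hLdt 0
  have e : (fun w : List α => run (dstep ρ (fun _ => 0)) i0 w)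
      = fun w =>
        (run (dstep (fun a => if DT (ρ a) then 1 else ρ a) (fun _ => 0)) i0 w
          ^^^ ((run (dstep (fun a => lin (ρ a))
                (fun a => if decide (ρ a = tr 1) = true then 1 else 0)) 0 w
              ^^^ run (dstep (fun a => lin (ρ a))
                (fun a => if decide (ρ a = tr 2) = true then 2 else 0)) 0 w)
            ^^^ run (dstep (fun a => lin (ρ a))
                (fun a => if decide (ρ a = tr 3) = true then 3 else 0)) 0 w))
          ^^^ run (dstep (fun a => lin (ρ a)) (fun _ => 0)) 0 w := by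
    funext w
    have h1 : dstep ρ (fun _ => 0)
        = dstep (fun a => lin (ρ a)) (fun a => (if DT (ρ a) then 0 else ρ a 0)
            ^^^ (if DT (ρ a) then ρ a 0 else 0) ^^^ 0) := by
      funext i a
      simp only [dstep]
      rw [split_nd]
      exact dstep_lin (ρ a) i
    have h2 := run_dstep_xor (fun a => lin (ρ a)) (fun a => if DT (ρ a) then 0 else ρ a 0)
      (fun a => if DT (ρ a) then ρ a 0 else 0) (fun _ => 0) w i0 0 0
    have h3 : dstep (fun a => lin (ρ a)) (fun a => if DT (ρ a) then 0 else ρ a 0)
        = dstep (fun a => if DT (ρ a) then 1 else ρ a) (fun _ => 0) := by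
      funext i a
      exact dstep_nd (ρ a) i
    have h4 : (fun a => if DT (ρ a) then ρ a 0 else 0)
        = fun a => (if decide (ρ a = tr 1) = true then 1 else 0)
            ^^^ (if decide (ρ a = tr 2) = true then 2 else 0)
            ^^^ (if decide (ρ a = tr 3) = true then 3 else 0) := by
      funext a
      simp only [decide_eq_true_eq]
      exact split_dt (ρ a)
    have h5 := run_dstep_xor (fun a => lin (ρ a))
      (fun a => if decide (ρ a = tr 1) = true then 1 else 0)
      (fun a => if decide (ρ a = tr 2) = true then 2 else 0)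
      (fun a => if decide (ρ a = tr 3) = true then 3 else 0) w 0 0 0
    have h0 : (0 : Fin 4) ^^^ 0 ^^^ 0 = 0 := by decide
    rw [h0] at h5
    rw [xor_zero4, xor_zero4] at h2
    rw [h1, h2, h3, h4, h5]
  rw [e]
  exact ((good_perm_run _ (fun a => nd_not_dt (ρ a)) i0).map₂
    (((hmark 1 (by decide)).map₂ (hmark 2 (by decide)) (fun x y => x ^^^ y)).map₂
      (hmark 3 (by decide)) (fun x y => x ^^^ y))
    (fun x y => x ^^^ y)).map₂ (good_perm_run _ hLdt 0) (fun x y => x ^^^ y)

/-- For every letter sent to a fixed-point-free involution, the letters sent to odd permutations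
all commute with it or none does. -/
theorem s4_mixed [Fintype α] (φ : α → Perm (Fin 4))
    (hφ : ∀ a, DT (φ a) →
      (∀ b, Perm.sign (φ b) = -1 → φ a * φ b ≠ φ b * φ a) ∨
        (∀ b, Perm.sign (φ b) = -1 → φ a * φ b = φ b * φ a))
    (T : Set (Perm (Fin 4))) :
    HLE 1 ({w : List α | (w.map φ).prod ∈ T} : Language α) := by
  have hρ : ∀ v : Fin 4, v ≠ 0 → (∃ a, (φ a)⁻¹ = tr v) →
      (∀ a, code ⇑(lin (φ a)⁻¹) ∈ linS v) ∨
        (∀ u : Fin 4, u ≠ 0 → u ≠ v → ∀ a, code ⇑(lin (φ a)⁻¹) ∈ linS u) := by
    rintro v hv ⟨a, ha⟩
    have ha' : φ a = tr v := by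
      rw [← inv_inv (φ a), ha, tr_inv]
    rcases hφ a (ha' ▸ tr_dt v hv) with h | h
    · left
      intro b
      by_contra hb
      obtain ⟨h1, h2⟩ := lin_bad v (φ b) hv hb
      exact h b h1 (ha' ▸ h2)
    · right
      intro u hu huv b
      by_contra hb
      obtain ⟨h1, h2⟩ := lin_bad u (φ b) hu hb
      have h3 := h b h1
      rw [ha'] at h3
      exact two_comm u v (φ b) ⟨hu, hv, huv, h1, h2, h3⟩
  have h1 : Good (fun w : List α => fun i : Fin 4 =>
      run (dstep (fun a => (φ a)⁻¹) (fun _ => 0)) i w) :=
    Good.pi _ (fun i => good_mixed_run _ hρ i)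
  have h2 : Good (fun w : List α => (w.map φ).prod) := by
    refine h1.of_det _ ?_
    intro w w' h
    have h3 : ((w.map φ).prod)⁻¹ = ((w'.map φ).prod)⁻¹ := by
      ext i
      have h4 := congrFun h i
      rw [run_perm, run_perm] at h4
      rw [h4]
    exact inv_injective h3
  have h3 := (h2.comp (fun g => (g ∈ T : Prop))).level True
  refine h3.congr ?_
  intro w
  show (w.map φ).prod ∈ T ↔ ((w.map φ).prod ∈ T) = True
  rw [eq_iff_iff, iff_true]

end Vale.Agent.Lib.P329.helper28
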