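import Vale.Agent.Lib.P329.helper28.Frob
import Vale.Agent.Lib.P329.helper28.Embed

/-!
# P329 (helper28): groups of order less than twenty-four, stamps with at most two values

A group of order less than twenty-four is covered by the theorems on nilpotent groups of class at
most three and on extensions of abelian groups by elementary abelian groups, unless it has order
twenty and no nontrivial central element; in that case it embeds into the group of the matrices
`!![m, 0; t, 1]` over `ZMod 5` (`frob20_embed`) and the results of `Frob` apply.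

* `order20_no_involution`: groups of order twenty, no letter of order two.
* `small_two_values`: groups of order less than twenty-four, at most two values besides `1`.
* `small_two_letters`: groups of order less than twenty-four, two letters.
-/

namespace Vale.Agent.Lib.P329.helper28

open Vale.Agent.Lib.P329 Vale.Agent.Lib.P329.helper24

variable {α : Type}

section transfer

variable {G : Type} [Group G] (μ v : G → ZMod 5) (hne : ∀ g, μ g ≠ 0)
  (hmul : ∀ g h, μ (g * h) = μ g * μ h) (hvmul : ∀ g h, v (g * h) = v g * μ h + v h)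

include hne hmul in
theorem emb_mu_one : μ 1 = 1 := by
  have h5 : Fact (Nat.Prime 5) := ⟨by norm_num⟩
  have h1 := hmul 1 1
  rw [mul_one] at h1
  have h2 : μ 1 * 1 = μ 1 * μ 1 := by rw [mul_one]; exact h1
  exact (mul_left_cancel₀ (hne 1) h2).symm

include hne hmul hvmul in
theorem emb_v_one : v 1 = 0 := by
  have h1 := hvmul 1 1
  rw [mul_one, emb_mu_one μ hne hmul, mul_one] at h1
  have h2 : v 1 + 0 = v 1 + v 1 := by rw [add_zero]; exact h1
  exact (add_left_cancel h2).symm

include hne hmul hvmul in
theorem emb_prod (φ : α → G) (w : List α) :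
    (w.map (fun a => !![μ (φ a), 0; v (φ a), 1])).prod
      = !![μ ((w.map φ).prod), 0; v ((w.map φ).prod), 1] := by
  induction w with
  | nil =>
    simp only [List.map_nil, List.prod_nil]
    rw [emb_mu_one μ hne hmul, emb_v_one μ v hne hmul hvmul]
    exact Matrix.one_fin_two
  | cons a w ih =>
    rw [List.map_cons, List.prod_cons, ih, List.map_cons, List.prod_cons, hmul, hvmul]
    simp

include hne hmul hvmul in
/-- A language recognized through an embedded group is recognized through the matrices. -/
theorem emb_HLE (hinj : ∀ g h, μ g = μ h → v g = v h → g = h) (φ : α → G) (T : Set G)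
    (h : ∀ T' : Set (Matrix (Fin 2) (Fin 2) (ZMod 5)),
      HLE 1 ({w : List α | (w.map (fun a => !![μ (φ a), 0; v (φ a), 1])).prod ∈ T'} :
        Language α)) :
    HLE 1 ({w : List α | (w.map φ).prod ∈ T} : Language α) := by
  refine (h {N | ∃ g ∈ T, N = !![μ g, 0; v g, 1]}).congr ?_
  intro w
  show (w.map φ).prod ∈ T ↔
    (w.map (fun a => !![μ (φ a), 0; v (φ a), 1])).prod ∈ {N | ∃ g ∈ T, N = !![μ g, 0; v g, 1]}
  rw [emb_prod μ v hne hmul hvmul]
  constructor
  · intro hw
    exact ⟨_, hw, rfl⟩
  · rintro ⟨g, hg, heq⟩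
    have h1 : μ ((w.map φ).prod) = μ g := by
      have h3 := congrFun (congrFun heq 0) 0
      simpa using h3
    have h2 : v ((w.map φ).prod) = v g := by
      have h3 := congrFun (congrFun heq 1) 0
      simpa using h3
    rw [hinj _ _ h1 h2]
    exact hg

end transfer

/-- Groups of order twenty: no letter is sent to an element of order two. -/
theorem order20_no_involution {G : Type} [Group G] [Finite G] (hG : Nat.card G = 20)
    [Fintype α] (φ : α → G) (hφ : ∀ a, φ a = 1 ∨ φ a * φ a ≠ 1) (T : Set G) :
    HLE 1 ({w : List α | (w.map φ).prod ∈ T} : Language α) := by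
  by_cases hc : ∃ z : G, z ≠ 1 ∧ ∀ g : G, g * z = z * g
  · exact covered_height_one (small_group_covered (by rw [hG]; norm_num) (fun _ => hc)) φ T
  have hz : ∀ c : G, (∀ g : G, g * c = c * g) → c = 1 := by
    intro c h
    by_contra h1
    exact hc ⟨c, h1, h⟩
  obtain ⟨μ, v, hne, hmul, hvmul, hinj⟩ := frob20_embed hG hz
  refine emb_HLE μ v hne hmul hvmul hinj φ T (fun T' => ?_)
  refine f20_no_reflection (fun a => μ (φ a)) (fun a => v (φ a)) (fun a => ?_) T'
  have hcase : ∀ x : ZMod 5, x ≠ 0 → x ≠ 4 → x = 1 ∨ x = 2 ∨ x = 3 := by decide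
  have h5 : ∀ x : ZMod 5, x * 4 + x = 0 := by decide
  have h16 : (4 : ZMod 5) * 4 = 1 := by decide
  refine hcase _ (hne _) (fun h4 => ?_)
  rcases hφ a with h1 | h1
  · rw [h1, emb_mu_one μ hne hmul] at h4
    exact absurd h4 (by decide)
  · apply h1
    apply hinj
    · rw [hmul, h4, h16, emb_mu_one μ hne hmul]
    · rw [hvmul, h4, h5, emb_v_one μ v hne hmul hvmul]

/-- Groups of order less than twenty-four: the letters take at most two values besides `1`. -/
theorem small_two_values {G : Type} [Group G] [Finite G] (hG : Nat.card G < 24)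
    [Fintype α] (φ : α → G) (g h : G) (hφ : ∀ a, φ a = 1 ∨ φ a = g ∨ φ a = h) (T : Set G) :
    HLE 1 ({w : List α | (w.map φ).prod ∈ T} : Language α) := by
  by_cases hc : Nat.card G = 20 → ∃ z : G, z ≠ 1 ∧ ∀ g : G, g * z = z * g
  · exact covered_height_one (small_group_covered hG hc) φ T
  push Not at hc
  obtain ⟨h20, hc⟩ := hc
  have hz : ∀ c : G, (∀ g : G, g * c = c * g) → c = 1 := by
    intro c h
    by_contra h1
    obtain ⟨g', hg'⟩ := hc c h1
    exact hg' (h g')
  obtain ⟨μ, v, hne, hmul, hvmul, hinj⟩ := frob20_embed h20 hz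
  refine emb_HLE μ v hne hmul hvmul hinj φ T (fun T' => ?_)
  refine f20_two_values (fun a => μ (φ a)) (fun a => v (φ a)) (fun a => hne _)
    (μ g) (v g) (μ h) (v h) (fun a => ?_) T'
  rcases hφ a with h1 | h1 | h1
  · left
    rw [h1]
    exact ⟨emb_mu_one μ hne hmul, emb_v_one μ v hne hmul hvmul⟩
  · right
    left
    rw [h1]
    exact ⟨rfl, rfl⟩
  · right
    right
    rw [h1]
    exact ⟨rfl, rfl⟩

/-- Groups of order less than twenty-four: every stamp of a two-letter alphabet. -/
theorem small_two_letters {G : Type} [Group G] [Finite G] (hG : Nat.card G < 24)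
    (φ : Fin 2 → G) (T : Set G) :
    HLE 1 ({w : List (Fin 2) | (w.map φ).prod ∈ T} : Language (Fin 2)) := by
  refine small_two_values hG φ (φ 0) (φ 1) (fun a => ?_) T
  fin_cases a
  · exact Or.inr (Or.inl rfl)
  · exact Or.inr (Or.inr rfl)

end Vale.Agent.Lib.P329.helper28
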