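import Vale.Agent.Lib.P329.helper28.Cert

/-!
# P329 (helper28): the two-layer automaton on `ZMod 2 × ZMod 5`

The states are the pairs `(s, x)`.  The letter `1` acts as `(s, x) ↦ (0, m * x + p s)`, the letter
`2` as `(s, x) ↦ (s + 1, - x + q s)` and the letter `0` as the identity.  The events are the
transitions of the letters `1` and `2` that lead to the state `(0, 0)`.
-/

namespace Vale.Agent.Lib.P329.helper28

open Vale.Agent.Lib.P329 Vale.Agent.Lib.P329.helper24

/-- The two-layer automaton. -/
def two (m : ZMod 5) (p q : ZMod 2 → ZMod 5) (z : ZMod 2 × ZMod 5) (c : Fin 3) :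
    ZMod 2 × ZMod 5 :=
  if c = 0 then z else if c = 1 then (0, m * z.2 + p z.1) else (z.1 + 1, - z.2 + q z.1)

/-- The events of the two-layer automaton. -/
def ev2 (m : ZMod 5) (p q : ZMod 2 → ZMod 5) (z : ZMod 2 × ZMod 5) (c : Fin 3) : Bool :=
  decide (c ≠ 0 ∧ two m p q z c = (0, 0))

/-- The table with the values `c0` on the layer `0` and `c1` on the layer `1`. -/
def tab (c0 c1 : ZMod 5) (s : ZMod 2) : ZMod 5 := if s = 0 then c0 else c1

/-- The numbering of the states of the event-free automaton; the sink is `10`. -/
def idx2 : Option (ZMod 2 × ZMod 5) → ℕ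
  | none => 10
  | some z => 5 * z.1.val + z.2.val

theorem idx2_inj : Function.Injective idx2 := by decide

theorem idx2_lt : ∀ s, idx2 s < 11 := by decide

end Vale.Agent.Lib.P329.helper28
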